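import Mathlib.LinearAlgebra.BilinearMap
import Mathlib.Data.Real.Basic
import Mathlib.Algebra.Module.BigOperators
import Mathlib.Tactic

/-!
# P088, local step: the algebra of the estimate near the diagonal

`D i`, `v i` operators with formal adjoints `Ds i`, `vs i`; the relations are those of
`D = d_q + E q`, `v = d_p + W_p - (l_p / 2E) D^2`, `W = E |q|^2 / 2 + phi(p)`, `E = E0 e^{2 l(p)}`,
`L i = l_i`, `LL i j = l_ij`, `C i j = 2 phi_ij + (l_ij / E) BB`.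
-/

noncomputable section

namespace Vale.Agent.P088.HY.H593W

open Finset

/-- The operators and their relations. -/
structure Osc (ι : Type*) (F : Type*) [Fintype ι] [DecidableEq ι] [AddCommGroup F]
    [Module ℝ F] where
  ip : F →ₗ[ℝ] F →ₗ[ℝ] ℝ
  D : ι → F →ₗ[ℝ] F
  Ds : ι → F →ₗ[ℝ] F
  v : ι → F →ₗ[ℝ] F
  vs : ι → F →ₗ[ℝ] F
  L : ι → F →ₗ[ℝ] F
  LL : ι → ι → F →ₗ[ℝ] F
  C : ι → ι → F →ₗ[ℝ] F
  E : F →ₗ[ℝ] F
  symm : ∀ x y, ip x y = ip y x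
  adD : ∀ i x y, ip (D i x) y = ip x (Ds i y)
  adv : ∀ i x y, ip (v i x) y = ip x (vs i y)
  adE : ∀ x y, ip (E x) y = ip x (E y)
  adL : ∀ i x y, ip (L i x) y = ip x (L i y)
  DD : ∀ i j x, D i (D j x) = D j (D i x)
  DsDs : ∀ i j x, Ds i (Ds j x) = Ds j (Ds i x)
  DDs : ∀ i j x, D i (Ds j x) = Ds j (D i x) + if i = j then (2 : ℝ) • E x else 0
  ED : ∀ i x, E (D i x) = D i (E x)
  EDs : ∀ i x, E (Ds i x) = Ds i (E x)
  EL : ∀ i x, E (L i x) = L i (E x)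
  LD : ∀ i j x, L i (D j x) = D j (L i x)
  LDs : ∀ i j x, L i (Ds j x) = Ds j (L i x)
  vD : ∀ i j x, v i (D j x) = D j (v i x)
  vsDs : ∀ i j x, vs i (Ds j x) = Ds j (vs i x)
  vDs : ∀ i j x, v i (Ds j x) = Ds j (v i x) + (2 : ℝ) • L i (Ds j x)
  Dvs : ∀ i j x, D j (vs i x) = vs i (D j x) + (2 : ℝ) • L i (D j x)
  vE : ∀ i x, v i (E x) = E (v i x) + (2 : ℝ) • E (L i x)
  Evs : ∀ i x, E (vs i x) = vs i (E x) + (2 : ℝ) • E (L i x)
  vL : ∀ i j x, v i (L j x) = L j (v i x) + LL i j x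
  Lvs : ∀ i j x, L j (vs i x) = vs i (L j x) + LL i j x
  vvs : ∀ i j x, v i (vs j x) = vs j (v i x) + C i j x
  LLc : ∀ i j x, L i (L j x) = L j (L i x)
  LLs : ∀ i j x, LL i j x = LL j i x

namespace Osc

variable {ι F : Type*} [Fintype ι] [DecidableEq ι] [AddCommGroup F] [Module ℝ F]
variable (A : Osc ι F)

/-- `D^2`. -/
def D2 : F →ₗ[ℝ] F := ∑ i, A.D i ∘ₗ A.D i
/-- `D^{*2}`. -/
def Ds2 : F →ₗ[ℝ] F := ∑ i, A.Ds i ∘ₗ A.Ds i
/-- `D^* . D`. -/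
def N : F →ₗ[ℝ] F := ∑ i, A.Ds i ∘ₗ A.D i
/-- `D^* . D + n E`. -/
def BB : F →ₗ[ℝ] F := A.N + (Fintype.card ι : ℝ) • A.E
/-- `D^* . D + (n - 2) E`. -/
def B2 : F →ₗ[ℝ] F := A.N + ((Fintype.card ι : ℝ) - 2) • A.E
/-- `D . v`. -/
def Dv : F →ₗ[ℝ] F := ∑ i, A.D i ∘ₗ A.v i
/-- `D^* . v^*`. -/
def Dsvs : F →ₗ[ℝ] F := ∑ i, A.Ds i ∘ₗ A.vs i
/-- `v^* . D`. -/
def vsD : F →ₗ[ℝ] F := ∑ i, A.vs i ∘ₗ A.D i
/-- `L . D`. -/
def LDD : F →ₗ[ℝ] F := ∑ i, A.L i ∘ₗ A.D i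
/-- `v' = v + 4 L`. -/
def w (i : ι) : F →ₗ[ℝ] F := A.v i + (4 : ℝ) • A.L i

lemma D2_apply (x : F) : A.D2 x = ∑ i, A.D i (A.D i x) := by simp [D2]
lemma Ds2_apply (x : F) : A.Ds2 x = ∑ i, A.Ds i (A.Ds i x) := by simp [Ds2]
lemma N_apply (x : F) : A.N x = ∑ i, A.Ds i (A.D i x) := by simp [N]
lemma BB_apply (x : F) : A.BB x = A.N x + (Fintype.card ι : ℝ) • A.E x := by simp [BB]
lemma B2_apply (x : F) : A.B2 x = A.N x + ((Fintype.card ι : ℝ) - 2) • A.E x := by simp [B2]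
lemma Dv_apply (x : F) : A.Dv x = ∑ i, A.D i (A.v i x) := by simp [Dv]
lemma Dsvs_apply (x : F) : A.Dsvs x = ∑ i, A.Ds i (A.vs i x) := by simp [Dsvs]
lemma vsD_apply (x : F) : A.vsD x = ∑ i, A.vs i (A.D i x) := by simp [vsD]
lemma LDD_apply (x : F) : A.LDD x = ∑ i, A.L i (A.D i x) := by simp [LDD]
lemma w_apply (i : ι) (x : F) : A.w i x = A.v i x + (4 : ℝ) • A.L i x := by simp [w]

/-! ### adjoints -/

lemma adDs (i : ι) (x y : F) : A.ip (A.Ds i x) y = A.ip x (A.D i y) := by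
  rw [A.symm, ← A.adD, A.symm]

lemma advs (i : ι) (x y : F) : A.ip (A.vs i x) y = A.ip x (A.v i y) := by
  rw [A.symm, ← A.adv, A.symm]

lemma adD2 (x y : F) : A.ip (A.D2 x) y = A.ip x (A.Ds2 y) := by
  simp only [D2_apply, Ds2_apply, map_sum, LinearMap.sum_apply, A.adD]

lemma adDs2 (x y : F) : A.ip (A.Ds2 x) y = A.ip x (A.D2 y) := by
  rw [A.symm, ← A.adD2, A.symm]

lemma adDv (x y : F) : A.ip (A.Dv x) y = A.ip x (A.Dsvs y) := by
  simp only [Dv_apply, Dsvs_apply, map_sum, LinearMap.sum_apply, A.adD, A.adv, A.vsDs]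

lemma adDsvs (x y : F) : A.ip (A.Dsvs x) y = A.ip x (A.Dv y) := by
  rw [A.symm, ← A.adDv, A.symm]

lemma adN (x y : F) : A.ip (A.N x) y = A.ip x (A.N y) := by
  simp only [N_apply, map_sum, LinearMap.sum_apply, A.adD, A.adDs]

lemma adBB (x y : F) : A.ip (A.BB x) y = A.ip x (A.BB y) := by
  simp only [BB_apply, map_add, map_smul, LinearMap.add_apply, LinearMap.smul_apply, A.adN, A.adE]

lemma adB2 (x y : F) : A.ip (A.B2 x) y = A.ip x (A.B2 y) := by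
  simp only [B2_apply, map_add, map_smul, LinearMap.add_apply, LinearMap.smul_apply, A.adN, A.adE]

/-! ### commutation -/

lemma EN (x : F) : A.E (A.N x) = A.N (A.E x) := by
  simp only [N_apply, map_sum, A.EDs, A.ED]

lemma LN (i : ι) (x : F) : A.L i (A.N x) = A.N (A.L i x) := by
  simp only [N_apply, map_sum, A.LDs, A.LD]

lemma EBB (x : F) : A.E (A.BB x) = A.BB (A.E x) := by
  simp only [BB_apply, map_add, map_smul, A.EN]

lemma EB2 (x : F) : A.E (A.B2 x) = A.B2 (A.E x) := by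
  simp only [B2_apply, map_add, map_smul, A.EN]

lemma LBB (i : ι) (x : F) : A.L i (A.BB x) = A.BB (A.L i x) := by
  simp only [BB_apply, map_add, map_smul, A.LN, A.EL]

lemma LB2 (i : ι) (x : F) : A.L i (A.B2 x) = A.B2 (A.L i x) := by
  simp only [B2_apply, map_add, map_smul, A.LN, A.EL]

lemma DN (j : ι) (x : F) : A.D j (A.N x) = A.N (A.D j x) + (2 : ℝ) • A.E (A.D j x) := by
  simp only [N_apply, map_sum, A.DDs, sum_add_distrib, sum_ite_eq, mem_univ, if_true]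
  congr 1
  exact sum_congr rfl fun i _ => by rw [A.DD j i]

lemma DB2 (j : ι) (x : F) : A.D j (A.B2 x) = A.BB (A.D j x) := by
  simp only [B2_apply, BB_apply, map_add, map_smul, A.DN, ← A.ED]
  module

lemma vN (i : ι) (x : F) : A.v i (A.N x) = A.N (A.v i x) + (2 : ℝ) • A.N (A.L i x) := by
  simp only [N_apply, map_sum, A.vDs, A.vD, sum_add_distrib, smul_sum]
  congr 1
  exact sum_congr rfl fun j _ => by rw [A.LDs, A.LD]

lemma Nvs (i : ι) (x : F) : A.N (A.vs i x) = A.vs i (A.N x) + (2 : ℝ) • A.N (A.L i x) := by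
  simp only [N_apply, map_sum, A.Dvs, map_add, map_smul, sum_add_distrib, smul_sum]
  congr 1
  · exact sum_congr rfl fun j _ => by rw [A.vsDs]
  · exact sum_congr rfl fun j _ => by rw [A.LD]

lemma vB2 (i : ι) (x : F) : A.v i (A.B2 x) = A.B2 (A.v i x) + (2 : ℝ) • A.B2 (A.L i x) := by
  simp only [B2_apply, map_add, map_smul, A.vN, A.vE]
  module

lemma vBB (i : ι) (x : F) : A.v i (A.BB x) = A.BB (A.v i x) + (2 : ℝ) • A.BB (A.L i x) := by
  simp only [BB_apply, map_add, map_smul, A.vN, A.vE]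
  module

lemma B2vs (i : ι) (x : F) : A.B2 (A.vs i x) = A.vs i (A.B2 x) + (2 : ℝ) • A.B2 (A.L i x) := by
  simp only [B2_apply, map_add, map_smul, A.Nvs, A.Evs]
  module

/-- `E BB (v + 4 L) = v E BB`. -/
lemma vEBB (i : ι) (x : F) : A.v i (A.E (A.BB x)) = A.E (A.BB (A.w i x)) := by
  simp only [A.vE, A.vBB, w_apply, map_add, map_smul, A.LBB]
  module

/-- `E B2^2 (v + 6 L) = v E B2^2`. -/
lemma vEB22 (i : ι) (x : F) :
    A.v i (A.E (A.B2 (A.B2 x))) = A.E (A.B2 (A.B2 (A.v i x + (6 : ℝ) • A.L i x))) := by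
  simp only [A.vE, A.vB2, map_add, map_smul, A.LB2]
  module

/-! ### the main part of the energy -/

lemma DDs2 (j : ι) (x : F) : A.D j (A.Ds2 x) = A.Ds2 (A.D j x) + (4 : ℝ) • A.E (A.Ds j x) := by
  have h : ∀ i, A.D j (A.Ds i (A.Ds i x)) = A.Ds i (A.Ds i (A.D j x)) +
      if j = i then (4 : ℝ) • A.E (A.Ds i x) else 0 := by
    intro i
    rw [A.DDs, A.DDs, map_add]
    by_cases hij : j = i
    · simp only [hij, if_true, map_smul, ← A.EDs]; module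
    · simp only [hij, if_false, map_zero, add_zero]
  simp only [Ds2_apply, map_sum, h, sum_add_distrib, sum_ite_eq, mem_univ, if_true]

lemma D2Ds2 (x : F) : A.D2 (A.Ds2 x) = A.Ds2 (A.D2 x) + (8 : ℝ) • A.E (A.BB x) := by
  have h : ∀ j, A.D j (A.D j (A.Ds2 x)) = A.Ds2 (A.D j (A.D j x)) +
      ((8 : ℝ) • A.E (A.Ds j (A.D j x)) + (8 : ℝ) • A.E (A.E x)) := by
    intro j
    rw [A.DDs2, map_add, A.DDs2, map_smul, ← A.ED, A.DDs, if_pos rfl, map_add, map_smul]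
    module
  rw [D2_apply, D2_apply, map_sum, sum_congr rfl fun j _ => h j, sum_add_distrib,
    sum_add_distrib, BB_apply, N_apply, map_add, map_sum, smul_add, smul_sum, sum_const,
    card_univ, map_smul]
  congr 2
  rw [← Nat.cast_smul_eq_nsmul ℝ]
  module

lemma vDs2 (j : ι) (x : F) : A.v j (A.Ds2 x) = A.Ds2 (A.v j x) + (4 : ℝ) • A.L j (A.Ds2 x) := by
  have h : ∀ i, A.v j (A.Ds i (A.Ds i x)) = A.Ds i (A.Ds i (A.v j x)) +
      (4 : ℝ) • A.L j (A.Ds i (A.Ds i x)) := by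
    intro i
    rw [A.vDs, A.vDs, map_add, map_smul, A.LDs j i (A.Ds i x)]
    module
  simp only [Ds2_apply, map_sum, h, sum_add_distrib, smul_sum]

lemma LDs2 (j : ι) (x : F) : A.L j (A.Ds2 x) = A.Ds2 (A.L j x) := by
  simp only [Ds2_apply, map_sum, A.LDs]

lemma LD2 (j : ι) (x : F) : A.L j (A.D2 x) = A.D2 (A.L j x) := by
  simp only [D2_apply, map_sum, A.LD]

lemma ED2 (x : F) : A.E (A.D2 x) = A.D2 (A.E x) := by
  simp only [D2_apply, map_sum, A.ED]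

lemma EDs2 (x : F) : A.E (A.Ds2 x) = A.Ds2 (A.E x) := by
  simp only [Ds2_apply, map_sum, A.EDs]

/-- `[D . v, D^{*2}]`. -/
lemma DvDs2 (x : F) : A.Dv (A.Ds2 x) = A.Ds2 (A.Dv x) + (4 : ℝ) • A.Ds2 (A.LDD x) +
    ∑ j, ((4 : ℝ) • A.E (A.Ds j (A.v j x)) + (16 : ℝ) • A.E (A.L j (A.Ds j x))) := by
  have h : ∀ j, A.D j (A.v j (A.Ds2 x)) = A.Ds2 (A.D j (A.v j x)) +
      (4 : ℝ) • A.Ds2 (A.L j (A.D j x)) +
      ((4 : ℝ) • A.E (A.Ds j (A.v j x)) + (16 : ℝ) • A.E (A.L j (A.Ds j x))) := by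
    intro j
    rw [A.vDs2, map_add, map_smul, A.DDs2, ← A.LD, A.DDs2, map_add, map_smul, A.LDs2, A.EL]
    module
  rw [Dv_apply, sum_congr rfl fun j _ => h j, sum_add_distrib, sum_add_distrib, ← map_sum,
    ← smul_sum, ← map_sum, ← Dv_apply, ← LDD_apply]

/-- The quadratic form `Q (b, c)`. -/
def Q (b c : F) : ℝ :=
  8 * A.ip (A.E (A.BB b)) b + 8 * ∑ j, A.ip (A.E (A.Ds j b)) (A.vs j c) +
    2 * ∑ j, A.ip (A.E (A.vs j c)) (A.vs j c)

lemma cross (b c : F) : A.ip (A.Dv (A.Ds2 b)) c - A.ip (A.Ds2 (A.Dv b)) c =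
    4 * A.ip (A.LDD b) (A.D2 c) + 4 * ∑ j, A.ip (A.E (A.Ds j b)) (A.vs j c) := by
  have h : ∀ j, A.ip (A.E (A.Ds j b)) (A.vs j c) =
      A.ip (A.E (A.Ds j (A.v j b))) c + 4 * A.ip (A.E (A.L j (A.Ds j b))) c := by
    intro j
    rw [← A.adv, A.vE, A.vDs]
    simp only [map_add, map_smul, LinearMap.add_apply, LinearMap.smul_apply, smul_eq_mul]
    ring
  rw [A.DvDs2, sum_congr rfl fun j _ => h j, ← A.adDs2]
  simp only [map_add, map_smul, map_sum, LinearMap.add_apply, LinearMap.smul_apply,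
    LinearMap.sum_apply, smul_eq_mul, sum_add_distrib, mul_sum, mul_add]
  have : ∑ j, 4 * (4 * A.ip (A.E (A.L j (A.Ds j b))) c) =
      ∑ j, 16 * A.ip (A.E (A.L j (A.Ds j b))) c := sum_congr rfl fun j _ => by ring
  rw [this]
  ring

lemma sqR (c : F) : A.ip (A.Dsvs c) (A.Dsvs c) =
    A.ip (A.Dv c + (2 : ℝ) • A.LDD c) (A.Dv c + (2 : ℝ) • A.LDD c) +
    ∑ i, ∑ j, A.ip (A.C i j (A.D i c) + (4 : ℝ) • A.LL i j (A.D i c)) (A.D j c) +
    2 * ∑ j, A.ip (A.E (A.vs j c)) (A.vs j c) := by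
  have h1 : A.ip (A.Dsvs c) (A.Dsvs c) =
      ∑ i, ∑ j, A.ip (A.D i (A.vs j c)) (A.D j (A.vs i c)) +
        2 * ∑ j, A.ip (A.E (A.vs j c)) (A.vs j c) := by
    have h2 : ∀ i j, A.ip (A.Ds j (A.vs j c)) (A.Ds i (A.vs i c)) =
        A.ip (A.D i (A.vs j c)) (A.D j (A.vs i c)) +
          if i = j then 2 * A.ip (A.E (A.vs j c)) (A.vs i c) else 0 := by
      intro i j
      rw [← A.adD, A.DDs, map_add, LinearMap.add_apply, A.adDs]
      by_cases hij : i = j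
      · simp only [hij, if_true, map_smul, LinearMap.smul_apply, smul_eq_mul]
      · simp only [hij, if_false, map_zero, LinearMap.zero_apply]
    simp only [Dsvs_apply, map_sum, LinearMap.sum_apply, h2, sum_add_distrib, sum_ite_eq,
      mem_univ, if_true, mul_sum]
  have h3 : ∀ i j, A.ip (A.D i (A.vs j c)) (A.D j (A.vs i c)) =
      A.ip (A.v i (A.D i c) + (2 : ℝ) • A.L i (A.D i c))
        (A.v j (A.D j c) + (2 : ℝ) • A.L j (A.D j c)) +
      A.ip (A.C i j (A.D i c) + (4 : ℝ) • A.LL i j (A.D i c)) (A.D j c) := by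
    intro i j
    have e1 : A.ip (A.vs j (A.D i c)) (A.vs i (A.D j c)) =
        A.ip (A.v i (A.D i c)) (A.v j (A.D j c)) + A.ip (A.C i j (A.D i c)) (A.D j c) := by
      rw [← A.adv, A.vvs, map_add, LinearMap.add_apply, A.advs]
    have e2 : A.ip (A.vs j (A.D i c)) (A.L i (A.D j c)) =
        A.ip (A.L i (A.D i c)) (A.v j (A.D j c)) + A.ip (A.LL i j (A.D i c)) (A.D j c) := by
      rw [← A.adL, A.Lvs, map_add, LinearMap.add_apply, A.advs, A.LLs j i]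
    have e3 : A.ip (A.L j (A.D i c)) (A.vs i (A.D j c)) =
        A.ip (A.v i (A.D i c)) (A.L j (A.D j c)) + A.ip (A.LL i j (A.D i c)) (A.D j c) := by
      rw [← A.adv, A.vL, map_add, LinearMap.add_apply, A.adL]
    have e4 : A.ip (A.L j (A.D i c)) (A.L i (A.D j c)) =
        A.ip (A.L i (A.D i c)) (A.L j (A.D j c)) := by
      rw [← A.adL, A.LLc, A.adL]
    rw [A.Dvs, A.Dvs]
    simp only [map_add, map_smul, LinearMap.add_apply, LinearMap.smul_apply, smul_eq_mul]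
    linear_combination e1 + 2 * e2 + 2 * e3 + 4 * e4
  rw [h1]
  congr 1
  simp only [h3, sum_add_distrib]
  congr 1
  have h4 : A.Dv c + (2 : ℝ) • A.LDD c = ∑ i, (A.v i (A.D i c) + (2 : ℝ) • A.L i (A.D i c)) := by
    simp only [Dv_apply, LDD_apply, sum_add_distrib, smul_sum, A.vD]
  rw [h4]
  simp only [map_sum, LinearMap.sum_apply]
  exact sum_comm

/-- The main part of the energy. -/
theorem T0_eq (b c : F) :
    A.ip (A.Ds2 b + A.Dsvs c) (A.Ds2 b + A.Dsvs c) + A.ip (A.D2 c - A.Dv b) (A.D2 c - A.Dv b) =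
    A.ip (A.D2 b) (A.D2 b) + A.ip (A.Dv b) (A.Dv b) + A.ip (A.D2 c) (A.D2 c) +
    A.ip (A.Dv c + (2 : ℝ) • A.LDD c) (A.Dv c + (2 : ℝ) • A.LDD c) +
    ∑ i, ∑ j, A.ip (A.C i j (A.D i c) + (4 : ℝ) • A.LL i j (A.D i c)) (A.D j c) +
    8 * A.ip (A.LDD b) (A.D2 c) + A.Q b c := by
  have h1 : A.ip (A.Ds2 b) (A.Ds2 b) = A.ip (A.D2 b) (A.D2 b) + 8 * A.ip (A.E (A.BB b)) b := by
    rw [← A.adD2, A.D2Ds2]
    simp only [map_add, map_smul, LinearMap.add_apply, LinearMap.smul_apply, smul_eq_mul, A.adDs2]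
  have h2 : A.ip (A.Ds2 b) (A.Dsvs c) = A.ip (A.Dv (A.Ds2 b)) c := by rw [A.adDv]
  have h3 : A.ip (A.D2 c) (A.Dv b) = A.ip (A.Ds2 (A.Dv b)) c := by
    rw [A.adDs2, A.symm]
  have h4 := A.cross b c
  have h5 := A.sqR c
  have h6 : A.ip (A.Dsvs c) (A.Ds2 b) = A.ip (A.Ds2 b) (A.Dsvs c) := A.symm _ _
  have h7 : A.ip (A.Dv b) (A.D2 c) = A.ip (A.D2 c) (A.Dv b) := A.symm _ _
  simp only [map_add, map_sub, LinearMap.add_apply, LinearMap.sub_apply, Q] at *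
  linear_combination h1 + 2 * h2 - 2 * h3 + 2 * h4 + h5 + h6 - h7

/-! ### the substitution `c = B2 f` -/

lemma Dvs2 (j : ι) (x : F) : A.D j (A.vs j x - (2 : ℝ) • A.L j x) = A.vs j (A.D j x) := by
  rw [map_sub, map_smul, A.Dvs, A.LD]; module

lemma vsB2 (j : ι) (x : F) : A.vs j (A.B2 x) = A.B2 (A.vs j x - (2 : ℝ) • A.L j x) := by
  rw [map_sub, map_smul, A.B2vs]; module

lemma Q_cross (b f : F) : ∑ j, A.ip (A.E (A.Ds j b)) (A.vs j (A.B2 f)) =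
    A.ip (A.E (A.BB b)) (A.vsD f) := by
  have h : ∀ j, A.ip (A.E (A.Ds j b)) (A.vs j (A.B2 f)) = A.ip (A.E (A.BB b)) (A.vs j (A.D j f)) := by
    intro j
    rw [A.EDs, A.adDs, A.vsB2, A.DB2, A.Dvs2, A.EBB, A.adBB]
  rw [sum_congr rfl fun j _ => h j, vsD_apply, map_sum]

lemma Q_vv (f : F) : ∑ j, A.ip (A.E (A.vs j (A.B2 f))) (A.vs j (A.B2 f)) =
    ∑ j, A.ip (A.E (A.B2 (A.B2 (A.w j f)))) (A.w j f) +
      ∑ j, A.ip (A.E (A.B2 (A.B2 (A.C j j f + (2 : ℝ) • A.LL j j f)))) f := by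
  rw [← sum_add_distrib]
  refine sum_congr rfl fun j _ => ?_
  set M : F →ₗ[ℝ] F := A.E ∘ₗ A.B2 ∘ₗ A.B2 with hM
  have hMa : ∀ x, A.E (A.B2 (A.B2 x)) = M x := fun x => rfl
  have adM : ∀ x y, A.ip (M x) y = A.ip x (M y) := by
    intro x y
    rw [← hMa, ← hMa, A.adE, A.adB2, A.adB2, A.EB2, A.EB2]
  have vM : ∀ x, A.v j (M x) = M (A.v j x + (6 : ℝ) • A.L j x) := fun x => A.vEB22 j x
  have LM : ∀ x, A.L j (M x) = M (A.L j x) := by
    intro x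
    rw [← hMa, ← hMa, ← A.EL, A.LB2, A.LB2]
  have h1 : A.ip (A.E (A.vs j (A.B2 f))) (A.vs j (A.B2 f)) =
      A.ip (M (A.vs j f - (2 : ℝ) • A.L j f)) (A.vs j f - (2 : ℝ) • A.L j f) := by
    rw [A.vsB2, ← hMa, ← A.adB2, ← A.EB2]
  have h2 : ∀ x y, A.ip (M x) (A.vs j y - (2 : ℝ) • A.L j y) = A.ip (M (A.w j x)) y := by
    intro x y
    rw [map_sub, map_smul, ← A.adv, vM, ← A.adL, LM, w_apply]
    simp only [map_add, map_smul, LinearMap.add_apply, LinearMap.smul_apply, smul_eq_mul]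
    ring
  have h3 : A.w j (A.vs j f - (2 : ℝ) • A.L j f) =
      (A.vs j (A.w j f) - (2 : ℝ) • A.L j (A.w j f)) + (A.C j j f + (2 : ℝ) • A.LL j j f) := by
    simp only [w_apply, map_add, map_sub, map_smul, A.vvs, A.vL, A.Lvs]
    module
  rw [h1, h2, h3, map_add M, map_add, LinearMap.add_apply, adM, A.symm _ (M f), h2, adM, hMa]
  rw [A.symm (A.w j f), adM, hMa]

lemma Q_ff (f : F) : A.ip (A.E (A.BB (A.vsD f))) (A.vsD f) =
    ∑ j, A.ip (A.E (A.N (A.B2 (A.w j f)))) (A.w j f) -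
      (1 / 2) * ∑ i, ∑ j, A.ip (A.E (A.BB (A.D i (A.w j f) - A.D j (A.w i f))))
        (A.D i (A.w j f) - A.D j (A.w i f)) +
      ∑ i, ∑ j, A.ip (A.E (A.BB (A.C j i (A.D i f) + (4 : ℝ) • A.LL j i (A.D i f)))) (A.D j f) := by
  set M : F →ₗ[ℝ] F := A.E ∘ₗ A.BB with hM
  have hMa : ∀ x, A.E (A.BB x) = M x := fun x => rfl
  have adM : ∀ x y, A.ip (M x) y = A.ip x (M y) := by
    intro x y
    rw [← hMa, ← hMa, A.adE, A.adBB, A.EBB]
  have vM : ∀ j x, A.v j (M x) = M (A.w j x) := fun j x => A.vEBB j x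
  have h1 : A.ip (M (A.vsD f)) (A.vsD f) =
      ∑ i, ∑ j, A.ip (M (A.w j (A.vs i (A.D i f)))) (A.D j f) := by
    rw [vsD_apply]
    simp only [map_sum, LinearMap.sum_apply, ← A.adv, vM]
    exact sum_comm
  have h2 : ∀ i j x, A.w j (A.vs i x) = A.vs i (A.w j x) + (A.C j i x + (4 : ℝ) • A.LL j i x) := by
    intro i j x
    simp only [w_apply, map_add, map_smul, A.vvs, A.Lvs, A.LLs i j]
    module
  have h3 : ∀ i x y, A.ip (M (A.vs i x)) y = A.ip (M x) (A.w i y) := by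
    intro i x y
    rw [adM, A.advs, vM, adM]
  have h4 : ∀ i j x, A.w j (A.D i x) = A.D i (A.w j x) := by
    intro i j x
    simp only [w_apply, map_add, map_smul, A.vD, A.LD]
  have h5 : ∀ i j, A.ip (M (A.w j (A.vs i (A.D i f)))) (A.D j f) =
      A.ip (M (A.D i (A.w j f))) (A.D j (A.w i f)) +
        A.ip (M (A.C j i (A.D i f) + (4 : ℝ) • A.LL j i (A.D i f))) (A.D j f) := by
    intro i j
    rw [h2, map_add M, map_add, LinearMap.add_apply, h3, h4, h4]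
  have h6 : ∑ i, ∑ j, A.ip (M (A.D i (A.w j f))) (A.D j (A.w i f)) =
      ∑ i, ∑ j, A.ip (M (A.D i (A.w j f))) (A.D i (A.w j f)) -
      (1 / 2) * ∑ i, ∑ j, A.ip (M (A.D i (A.w j f) - A.D j (A.w i f)))
        (A.D i (A.w j f) - A.D j (A.w i f)) := by
    have e1 : ∀ i j, A.ip (M (A.D i (A.w j f) - A.D j (A.w i f)))
        (A.D i (A.w j f) - A.D j (A.w i f)) =
        A.ip (M (A.D i (A.w j f))) (A.D i (A.w j f)) + A.ip (M (A.D j (A.w i f))) (A.D j (A.w i f)) -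
        A.ip (M (A.D i (A.w j f))) (A.D j (A.w i f)) -
        A.ip (M (A.D j (A.w i f))) (A.D i (A.w j f)) := by
      intro i j
      simp only [map_sub, LinearMap.sub_apply]
      ring
    have e2 := sum_comm (s := univ) (t := univ)
      (f := fun i j => A.ip (M (A.D j (A.w i f))) (A.D j (A.w i f)))
    have e3 := sum_comm (s := univ) (t := univ)
      (f := fun i j => A.ip (M (A.D j (A.w i f))) (A.D i (A.w j f)))
    simp only [e1, sum_add_distrib, sum_sub_distrib]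
    rw [e2, e3]
    ring
  have h7 : ∀ j, ∑ i, A.ip (M (A.D i (A.w j f))) (A.D i (A.w j f)) =
      A.ip (A.E (A.N (A.B2 (A.w j f)))) (A.w j f) := by
    intro j
    have e : ∀ i, A.ip (M (A.D i (A.w j f))) (A.D i (A.w j f)) =
        A.ip (A.E (A.Ds i (A.D i (A.B2 (A.w j f))))) (A.w j f) := by
      intro i
      rw [← A.adDs, ← hMa, ← A.DB2, A.EDs]
    simp only [e, N_apply, map_sum, LinearMap.sum_apply]
  rw [hMa, h1]
  simp only [h5, sum_add_distrib, h6]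
  rw [sum_comm (s := univ) (t := univ)
    (f := fun i j => A.ip (M (A.D i (A.w j f))) (A.D i (A.w j f))), sum_congr rfl fun j _ => h7 j]
  rfl

/-- The sum of squares. -/
theorem Q_eq (b f : F) : A.Q b (A.B2 f) =
    8 * A.ip (A.E (A.BB (b + (1 / 2 : ℝ) • A.vsD f))) (b + (1 / 2 : ℝ) • A.vsD f) +
    2 * ((Fintype.card ι : ℝ) - 2) * ∑ j, A.ip (A.E (A.E (A.B2 (A.w j f)))) (A.w j f) +
    ∑ i, ∑ j, A.ip (A.E (A.BB (A.D i (A.w j f) - A.D j (A.w i f))))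
        (A.D i (A.w j f) - A.D j (A.w i f)) +
    2 * (∑ j, A.ip (A.E (A.B2 (A.B2 (A.C j j f + (2 : ℝ) • A.LL j j f)))) f -
      ∑ i, ∑ j, A.ip (A.E (A.BB (A.C j i (A.D i f) + (4 : ℝ) • A.LL j i (A.D i f)))) (A.D j f)) := by
  have h1 := A.Q_cross b f
  have h2 := A.Q_vv f
  have h3 := A.Q_ff f
  have h4 : A.ip (A.E (A.BB (b + (1 / 2 : ℝ) • A.vsD f))) (b + (1 / 2 : ℝ) • A.vsD f) =
      A.ip (A.E (A.BB b)) b + A.ip (A.E (A.BB b)) (A.vsD f) +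
        (1 / 4) * A.ip (A.E (A.BB (A.vsD f))) (A.vsD f) := by
    have e : A.ip (A.E (A.BB (A.vsD f))) b = A.ip (A.E (A.BB b)) (A.vsD f) := by
      rw [A.adE, A.adBB, A.EBB, A.symm]
    simp only [map_add, map_smul, LinearMap.add_apply, LinearMap.smul_apply, smul_eq_mul, e]
    ring
  have h5 : ∀ j, A.ip (A.E (A.B2 (A.B2 (A.w j f)))) (A.w j f) -
      A.ip (A.E (A.N (A.B2 (A.w j f)))) (A.w j f) =
      ((Fintype.card ι : ℝ) - 2) * A.ip (A.E (A.E (A.B2 (A.w j f)))) (A.w j f) := by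
    intro j
    rw [A.B2_apply (A.B2 (A.w j f))]
    simp only [map_add, map_smul, LinearMap.add_apply, LinearMap.smul_apply, smul_eq_mul]
    ring
  have h6 : ∑ j, A.ip (A.E (A.B2 (A.B2 (A.w j f)))) (A.w j f) -
      ∑ j, A.ip (A.E (A.N (A.B2 (A.w j f)))) (A.w j f) =
      ((Fintype.card ι : ℝ) - 2) * ∑ j, A.ip (A.E (A.E (A.B2 (A.w j f)))) (A.w j f) := by
    rw [← sum_sub_distrib, mul_sum]
    exact sum_congr rfl fun j _ => h5 j
  rw [Q, h1, h2, h4]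
  linear_combination (-2) * h3 + 2 * h6

end Osc

end Vale.Agent.P088.HY.H593W
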