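import Vale.Agent.P088.R2.H593.W.Core2

/-!
# P088, local step: the exact identity for the true operators

`S = D^2 + K^2 / 4`, `R = D . K`, `K = v + (L / 2E) D^2` (helper516's identity): every factor is of
order at most two.
-/

noncomputable section

namespace Vale.Agent.P088.HY.H593W

open Finset

namespace Osc

variable {ι F : Type*} [Fintype ι] [DecidableEq ι] [AddCommGroup F] [Module ℝ F]
variable (A : Osc ι F)

/-- `L . D^*`. -/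
def LS : F →ₗ[ℝ] F := ∑ i, A.L i ∘ₗ A.Ds i
/-- `D^* . v`. -/
def Dsv : F →ₗ[ℝ] F := ∑ i, A.Ds i ∘ₗ A.v i
/-- `L . v`. -/
def Lv : F →ₗ[ℝ] F := ∑ i, A.L i ∘ₗ A.v i
/-- `|L|^2`. -/
def L2 : F →ₗ[ℝ] F := ∑ i, A.L i ∘ₗ A.L i

lemma LS_apply (x : F) : A.LS x = ∑ i, A.L i (A.Ds i x) := by simp [LS]
lemma Dsv_apply (x : F) : A.Dsv x = ∑ i, A.Ds i (A.v i x) := by simp [Dsv]
lemma Lv_apply (x : F) : A.Lv x = ∑ i, A.L i (A.v i x) := by simp [Lv]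
lemma L2_apply (x : F) : A.L2 x = ∑ i, A.L i (A.L i x) := by simp [L2]

lemma adLS (x y : F) : A.ip (A.LS x) y = A.ip x (A.LDD y) := by
  simp only [LS_apply, LDD_apply, map_sum, LinearMap.sum_apply, A.adL, A.adDs, A.LD]

lemma adLDD (x y : F) : A.ip (A.LDD x) y = A.ip x (A.LS y) := by
  rw [A.symm, ← A.adLS, A.symm]

lemma DLS (j : ι) (x : F) : A.D j (A.LS x) = A.LS (A.D j x) + (2 : ℝ) • A.E (A.L j x) := by
  have h : ∀ i, A.D j (A.L i (A.Ds i x)) = A.L i (A.Ds i (A.D j x)) +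
      if j = i then (2 : ℝ) • A.L i (A.E x) else 0 := by
    intro i
    rw [← A.LD, A.DDs, map_add]
    split_ifs <;> simp
  simp only [LS_apply, map_sum, h, sum_add_distrib, sum_ite_eq, mem_univ, if_true, A.EL]

lemma DsLDD (j : ι) (x : F) : A.LDD (A.Ds j x) = A.Ds j (A.LDD x) + (2 : ℝ) • A.E (A.L j x) := by
  have h : ∀ i, A.L i (A.D i (A.Ds j x)) = A.Ds j (A.L i (A.D i x)) +
      if j = i then (2 : ℝ) • A.L i (A.E x) else 0 := by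
    intro i
    rw [A.DDs, map_add, A.LDs]
    by_cases hij : i = j
    · subst hij; simp
    · have : ¬ j = i := fun h => hij h.symm
      simp [hij, this]
  simp only [LDD_apply, map_sum, h, sum_add_distrib, sum_ite_eq, mem_univ, if_true, A.EL]

lemma LLS (j : ι) (x : F) : A.L j (A.LS x) = A.LS (A.L j x) := by
  simp only [LS_apply, map_sum]
  exact sum_congr rfl fun i _ => by rw [A.LLc, A.LDs]

lemma LLDD (j : ι) (x : F) : A.L j (A.LDD x) = A.LDD (A.L j x) := by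
  simp only [LDD_apply, map_sum]
  exact sum_congr rfl fun i _ => by rw [A.LLc, A.LD]

lemma ELS (x : F) : A.E (A.LS x) = A.LS (A.E x) := by
  simp only [LS_apply, map_sum, A.EL, A.EDs]

lemma ELDD (x : F) : A.E (A.LDD x) = A.LDD (A.E x) := by
  simp only [LDD_apply, map_sum, A.EL, A.ED]

lemma DLDD (j : ι) (x : F) : A.D j (A.LDD x) = A.LDD (A.D j x) := by
  simp only [LDD_apply, map_sum]
  exact sum_congr rfl fun i _ => by rw [← A.LD, A.DD]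

lemma DsLS (j : ι) (x : F) : A.Ds j (A.LS x) = A.LS (A.Ds j x) := by
  simp only [LS_apply, map_sum]
  exact sum_congr rfl fun i _ => by rw [← A.LDs, A.DsDs]

lemma D2LDD (x : F) : A.D2 (A.LDD x) = A.LDD (A.D2 x) := by
  simp only [D2_apply, map_sum, A.DLDD]

lemma Ds2LS (x : F) : A.Ds2 (A.LS x) = A.LS (A.Ds2 x) := by
  simp only [Ds2_apply, map_sum, A.DsLS]

/-- `[l.D, l.D^*]`. -/
lemma LDDLS (x : F) : A.LDD (A.LS x) = A.LS (A.LDD x) + (2 : ℝ) • A.E (A.L2 x) := by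
  rw [LDD_apply, sum_congr rfl fun i _ => by rw [A.DLS, map_add, map_smul, A.LLS, ← A.EL],
    sum_add_distrib, ← map_sum, ← smul_sum, ← map_sum, ← LDD_apply, ← L2_apply]

/-- `[D^2, l.D^*]`. -/
lemma D2LS (x : F) : A.D2 (A.LS x) = A.LS (A.D2 x) + (4 : ℝ) • A.E (A.LDD x) := by
  have h : ∀ j, A.D j (A.D j (A.LS x)) = A.LS (A.D j (A.D j x)) +
      (4 : ℝ) • A.E (A.L j (A.D j x)) := by
    intro j
    rw [A.DLS, map_add, A.DLS, map_smul, ← A.ED, A.LD]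
    module
  rw [D2_apply, sum_congr rfl fun j _ => h j, sum_add_distrib, ← map_sum, ← smul_sum, ← map_sum,
    ← D2_apply, ← LDD_apply]

/-- `[l.D, D^{*2}]`. -/
lemma LDDDs2 (x : F) : A.LDD (A.Ds2 x) = A.Ds2 (A.LDD x) + (4 : ℝ) • A.E (A.LS x) := by
  have h : ∀ j, A.LDD (A.Ds j (A.Ds j x)) = A.Ds j (A.Ds j (A.LDD x)) +
      (4 : ℝ) • A.E (A.L j (A.Ds j x)) := by
    intro j
    rw [A.DsLDD, A.DsLDD, map_add, map_smul, ← A.EDs, A.LDs]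
    module
  rw [Ds2_apply, map_sum, sum_congr rfl fun j _ => h j, sum_add_distrib, ← smul_sum, ← map_sum,
    ← Ds2_apply, ← LS_apply]

/-- `[N, l.D^*]`. -/
lemma NLS (x : F) : A.N (A.LS x) = A.LS (A.N x) + (2 : ℝ) • A.E (A.LS x) := by
  have h : ∀ j, A.Ds j (A.D j (A.LS x)) = A.LS (A.Ds j (A.D j x)) +
      (2 : ℝ) • A.E (A.L j (A.Ds j x)) := by
    intro j
    rw [A.DLS, map_add, A.DsLS, map_smul, ← A.EDs, A.LDs]
  rw [N_apply, sum_congr rfl fun j _ => h j, sum_add_distrib, ← map_sum, ← smul_sum, ← map_sum,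
    ← N_apply, ← LS_apply]

lemma BBLS (x : F) : A.BB (A.LS x) = A.LS (A.BB x) + (2 : ℝ) • A.E (A.LS x) := by
  simp only [BB_apply, map_add, map_smul, A.NLS, A.ELS]
  module

/-- `[N, l.D]`. -/
lemma LDDN (x : F) : A.LDD (A.N x) = A.N (A.LDD x) + (2 : ℝ) • A.E (A.LDD x) := by
  have h : ∀ j, A.LDD (A.Ds j (A.D j x)) = A.Ds j (A.D j (A.LDD x)) +
      (2 : ℝ) • A.E (A.L j (A.D j x)) := by
    intro j
    rw [A.DsLDD, A.DLDD]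
  rw [N_apply, map_sum, sum_congr rfl fun j _ => h j, sum_add_distrib, ← smul_sum, ← map_sum,
    ← N_apply, ← LDD_apply]

lemma LDDBB (x : F) : A.LDD (A.BB x) = A.BB (A.LDD x) + (2 : ℝ) • A.E (A.LDD x) := by
  simp only [BB_apply, map_add, map_smul, A.LDDN, A.ELDD]
  module

/-- `v_j (l.D^*)`. -/
lemma vLS (j : ι) (x : F) : A.v j (A.LS x) = A.LS (A.v j x) + (2 : ℝ) • A.L j (A.LS x) +
    ∑ i, A.LL j i (A.Ds i x) := by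
  have h : ∀ i, A.v j (A.L i (A.Ds i x)) = A.L i (A.Ds i (A.v j x)) +
      (2 : ℝ) • A.L j (A.L i (A.Ds i x)) + A.LL j i (A.Ds i x) := by
    intro i
    rw [A.vL, A.vDs, map_add, map_smul, A.LLc i j]
  rw [LS_apply, map_sum, sum_congr rfl fun i _ => h i, sum_add_distrib, sum_add_distrib,
    ← smul_sum, ← map_sum, ← LS_apply]

/-- `(D.v) (l.D^*)`. -/
lemma DvLS (x : F) : A.Dv (A.LS x) = A.LS (A.Dv x) + (2 : ℝ) • A.E (A.Lv x) +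
    (2 : ℝ) • A.LDD (A.LS x) + ∑ j, ∑ i, A.D j (A.LL j i (A.Ds i x)) := by
  have h : ∀ j, A.D j (A.v j (A.LS x)) = A.LS (A.D j (A.v j x)) + (2 : ℝ) • A.E (A.L j (A.v j x)) +
      (2 : ℝ) • A.L j (A.D j (A.LS x)) + ∑ i, A.D j (A.LL j i (A.Ds i x)) := by
    intro j
    rw [A.vLS, map_add, map_add, A.DLS, map_smul, ← A.LD, map_sum]
  rw [Dv_apply, sum_congr rfl fun j _ => h j, sum_add_distrib, sum_add_distrib, sum_add_distrib,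
    ← map_sum, ← smul_sum, ← map_sum, ← smul_sum, ← Dv_apply, ← Lv_apply, ← LDD_apply]

/-- `(l.v) D^{*2}`. -/
lemma LvDs2 (x : F) : A.Lv (A.Ds2 x) = A.Ds2 (A.Lv x) + (4 : ℝ) • A.L2 (A.Ds2 x) := by
  have h : ∀ j, A.L j (A.v j (A.Ds2 x)) = A.Ds2 (A.L j (A.v j x)) +
      (4 : ℝ) • A.L j (A.L j (A.Ds2 x)) := by
    intro j
    rw [A.vDs2, map_add, map_smul, A.LDs2]
  rw [Lv_apply, sum_congr rfl fun j _ => h j, sum_add_distrib, ← map_sum, ← smul_sum,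
    ← Lv_apply, ← L2_apply]

/-- `(D.v) D^{*2}`, with `D^*.v`. -/
lemma DvDs2' (x : F) : A.Dv (A.Ds2 x) = A.Ds2 (A.Dv x) + (4 : ℝ) • A.Ds2 (A.LDD x) +
    (4 : ℝ) • A.E (A.Dsv x) + (16 : ℝ) • A.E (A.LS x) := by
  rw [A.DvDs2, sum_add_distrib, ← smul_sum, ← smul_sum, ← map_sum, ← map_sum, ← Dsv_apply,
    ← LS_apply]
  module

lemma EDv (x : F) : A.Dv (A.E x) = A.E (A.Dv x) + (2 : ℝ) • A.E (A.LDD x) := by
  have h : ∀ j, A.D j (A.v j (A.E x)) = A.E (A.D j (A.v j x)) + (2 : ℝ) • A.E (A.L j (A.D j x)) := by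
    intro j
    rw [A.vE, map_add, map_smul, ← A.ED, ← A.ED, A.LD]
  rw [Dv_apply, sum_congr rfl fun j _ => h j, sum_add_distrib, ← map_sum, ← smul_sum, ← map_sum,
    ← Dv_apply, ← LDD_apply]

lemma adL2 (x y : F) : A.ip (A.L2 x) y = A.ip x (A.L2 y) := by
  simp only [L2_apply, map_sum, LinearMap.sum_apply, A.adL]

lemma EL2 (x : F) : A.E (A.L2 x) = A.L2 (A.E x) := by
  simp only [L2_apply, map_sum, A.EL]

lemma D2L2 (x : F) : A.D2 (A.L2 x) = A.L2 (A.D2 x) := by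
  simp only [L2_apply, map_sum, A.LD2]

lemma Ds2L2 (x : F) : A.Ds2 (A.L2 x) = A.L2 (A.Ds2 x) := by
  simp only [L2_apply, map_sum, A.LDs2]

lemma BBL2 (x : F) : A.BB (A.L2 x) = A.L2 (A.BB x) := by
  simp only [L2_apply, map_sum, A.LBB]

/-! ### the inverse of `E` -/

/-- `1 / E`. -/
structure Inv (Ei : F →ₗ[ℝ] F) : Prop where
  l : ∀ x, A.E (Ei x) = x
  r : ∀ x, Ei (A.E x) = x

namespace Inv

variable {A} {Ei : F →ₗ[ℝ] F} (h : A.Inv Ei)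
include h

lemma comm {T : F →ₗ[ℝ] F} (hT : ∀ x, A.E (T x) = T (A.E x)) (x : F) : Ei (T x) = T (Ei x) := by
  have e := hT (Ei x)
  rw [h.l] at e
  rw [← e, h.r]

lemma D (i : ι) (x : F) : Ei (A.D i x) = A.D i (Ei x) := h.comm (A.ED i) x
lemma Ds (i : ι) (x : F) : Ei (A.Ds i x) = A.Ds i (Ei x) := h.comm (A.EDs i) x
lemma L (i : ι) (x : F) : Ei (A.L i x) = A.L i (Ei x) := h.comm (A.EL i) x
lemma D2 (x : F) : Ei (A.D2 x) = A.D2 (Ei x) := h.comm A.ED2 x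
lemma Ds2 (x : F) : Ei (A.Ds2 x) = A.Ds2 (Ei x) := h.comm A.EDs2 x
lemma LDD (x : F) : Ei (A.LDD x) = A.LDD (Ei x) := h.comm A.ELDD x
lemma LS (x : F) : Ei (A.LS x) = A.LS (Ei x) := h.comm A.ELS x
lemma L2 (x : F) : Ei (A.L2 x) = A.L2 (Ei x) := h.comm A.EL2 x
lemma BB (x : F) : Ei (A.BB x) = A.BB (Ei x) := h.comm A.EBB x

lemma ad (x y : F) : A.ip (Ei x) y = A.ip x (Ei y) := by
  conv_lhs => rw [← h.l y]
  rw [← A.adE, h.l]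

lemma Dv (x : F) : A.Dv (Ei x) = Ei (A.Dv x) - (2 : ℝ) • Ei (A.LDD x) := by
  have e := A.EDv (Ei x)
  rw [h.l] at e
  rw [e, map_add, map_smul, h.r, h.r, h.LDD]
  module

/-- step (a) -/
lemma st_a (c : F) : A.ip (A.Dsvs c) (Ei (A.LS (A.Ds2 c))) =
    A.ip (A.Dv c) (Ei (A.LDD (A.D2 c))) + 4 * A.ip (A.LDD c) (Ei (A.LDD (A.D2 c))) +
    4 * A.ip (A.LS (A.Dsv c)) c + 16 * A.ip (A.LS (A.LS c)) c + 2 * A.ip (A.Lv c) (A.D2 c) +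
    8 * A.ip (A.L2 (A.Ds2 c)) c + A.ip (Ei (∑ j, ∑ i, A.D j (A.LL j i (A.Ds i (A.Ds2 c))))) c := by
  have e : A.Dv (Ei (A.LS (A.Ds2 c))) = Ei (A.LS (A.Ds2 (A.Dv c))) +
      (4 : ℝ) • Ei (A.LS (A.Ds2 (A.LDD c))) + (4 : ℝ) • A.LS (A.Dsv c) +
      (16 : ℝ) • A.LS (A.LS c) + (2 : ℝ) • A.Ds2 (A.Lv c) + (8 : ℝ) • A.L2 (A.Ds2 c) +
      Ei (∑ j, ∑ i, A.D j (A.LL j i (A.Ds i (A.Ds2 c)))) := by
    rw [h.Dv, A.DvLS, A.DvDs2', A.LvDs2]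
    simp only [map_add, map_smul, ← A.ELS, h.r]
    module
  rw [A.symm, ← A.adDv, e]
  simp only [map_add, map_smul, LinearMap.add_apply, LinearMap.smul_apply, smul_eq_mul]
  have e1 : A.ip (Ei (A.LS (A.Ds2 (A.Dv c)))) c = A.ip (A.Dv c) (Ei (A.LDD (A.D2 c))) := by
    rw [h.ad, A.adLS, A.adDs2, ← h.LDD, ← h.D2, A.D2LDD]
  have e2 : A.ip (Ei (A.LS (A.Ds2 (A.LDD c)))) c = A.ip (A.LDD c) (Ei (A.LDD (A.D2 c))) := by
    rw [h.ad, A.adLS, A.adDs2, ← h.LDD, ← h.D2, A.D2LDD]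
  rw [e1, e2, A.adDs2]

omit h in
/-- step (b) -/
lemma st_b (c : F) : ∑ j, A.ip (A.Ds j (A.LS c)) (A.vs j c) =
    A.ip (A.LS (A.Dsv c)) c + 4 * A.ip (A.LS (A.LS c)) c +
      A.ip (∑ j, ∑ i, A.Ds j (A.LL j i (A.Ds i c))) c := by
  have e : ∀ j, A.ip (A.Ds j (A.LS c)) (A.vs j c) =
      A.ip (A.LS (A.Ds j (A.v j c))) c + 4 * A.ip (A.LS (A.L j (A.Ds j c))) c +
      A.ip (∑ i, A.Ds j (A.LL j i (A.Ds i c))) c := by
    intro j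
    rw [← A.adv, A.vDs, A.vLS]
    simp only [map_add, map_smul, map_sum, LinearMap.add_apply, LinearMap.smul_apply,
      LinearMap.sum_apply, smul_eq_mul, A.DsLS, A.LLS, ← A.LDs]
    ring
  rw [sum_congr rfl fun j _ => e j, sum_add_distrib, sum_add_distrib, ← mul_sum]
  simp only [Dsv_apply, LS_apply (x := c), map_sum, LinearMap.sum_apply]

/-- step (c) -/
lemma st_c (c : F) : (1 / 4 : ℝ) * A.ip (Ei (A.LS (A.Ds2 c))) (Ei (A.LS (A.Ds2 c))) -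
    (1 / 4 : ℝ) * A.ip (Ei (A.LDD (A.D2 c))) (Ei (A.LDD (A.D2 c))) -
    2 * A.ip (Ei (A.BB (A.LS c))) (A.LS c) =
    2 * A.ip (Ei (A.D2 c)) (A.LDD (A.LDD c)) + 4 * A.ip (A.LDD c) (A.LDD c) +
      (1 / 2) * A.ip (Ei (A.L2 (A.D2 c))) (A.D2 c) := by
  have key : ∀ y, A.D2 (A.LDD (A.LS (A.Ds2 y))) = A.Ds2 (A.LS (A.LDD (A.D2 y))) +
      (8 : ℝ) • A.E (A.LS (A.BB (A.LDD y))) + (4 : ℝ) • A.E (A.LS (A.D2 (A.LS y))) +
      (4 : ℝ) • A.E (A.LDD (A.Ds2 (A.LDD y))) + (16 : ℝ) • A.E (A.E (A.LDD (A.LS y))) +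
      (2 : ℝ) • A.E (A.L2 (A.Ds2 (A.D2 y))) + (16 : ℝ) • A.E (A.E (A.L2 (A.BB y))) := by
    intro y
    have k1 : A.D2 (A.L2 (A.Ds2 y)) = A.L2 (A.Ds2 (A.D2 y)) + (8 : ℝ) • A.E (A.L2 (A.BB y)) := by
      rw [A.D2L2, A.D2Ds2, map_add, map_smul, A.EL2]
    rw [A.LDDLS, map_add, map_smul, ← A.ED2, k1, A.D2LS, A.LDDDs2, map_add, map_smul, ← A.ED2,
      A.D2Ds2, map_add, map_smul, A.D2LDD, A.Ds2LS]
    simp only [map_add, map_smul, ← A.ELS, ← A.ELDD]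
    module
  have k2 : ∀ y, A.LDD (A.BB (A.LS y)) = A.LS (A.BB (A.LDD y)) + (2 : ℝ) • A.E (A.LS (A.LDD y)) +
      (2 : ℝ) • A.E (A.L2 (A.BB y)) + (2 : ℝ) • A.E (A.LDD (A.LS y)) := by
    intro y
    rw [A.BBLS, map_add, map_smul, A.LDDLS, A.LDDBB, map_add, map_smul, ← A.ELS, ← A.ELDD]
  have e1 : A.ip (Ei (A.LS (A.Ds2 c))) (Ei (A.LS (A.Ds2 c))) =
      A.ip (A.D2 (A.LDD (A.LS (A.Ds2 (Ei (Ei c)))))) c := by
    rw [A.adD2, A.adLDD, ← h.Ds2, ← h.LS, ← h.Ds2, ← h.LS, h.ad (Ei _)]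
  have e2 : A.ip (Ei (A.LDD (A.D2 c))) (Ei (A.LDD (A.D2 c))) =
      A.ip (A.Ds2 (A.LS (A.LDD (A.D2 (Ei (Ei c)))))) c := by
    rw [A.adDs2, A.adLS, ← h.D2, ← h.LDD, ← h.D2, ← h.LDD, h.ad (Ei _)]
  have e3 : A.ip (Ei (A.BB (A.LS c))) (A.LS c) = A.ip (A.LDD (A.BB (A.LS (Ei c)))) c := by
    rw [A.adLDD, ← h.LS, ← h.BB]
  have q2 : A.ip (A.E (A.LS (A.D2 (A.LS (Ei (Ei c)))))) c =
      A.ip (Ei (A.D2 c)) (A.LDD (A.LDD c)) + 4 * A.ip (A.LDD c) (A.LDD c) := by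
    rw [← h.LS, ← h.D2, ← h.LS, h.l, A.adLS, ← h.LS, ← h.D2, A.D2LS, map_add, map_smul, h.r,
      map_add, map_smul, LinearMap.add_apply, LinearMap.smul_apply, smul_eq_mul, h.LS, A.adLS]
  have q3 : A.ip (A.E (A.LDD (A.Ds2 (A.LDD (Ei (Ei c)))))) c =
      A.ip (Ei (A.D2 c)) (A.LDD (A.LDD c)) + 4 * A.ip (A.LDD c) (A.LDD c) := by
    rw [← h.LDD, ← h.Ds2, ← h.LDD, h.l, A.adLDD, ← h.LDD, ← h.Ds2, h.ad, A.adDs2, ← h.D2, ← h.ad,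
      A.symm (Ei _), ← h.ad, A.D2LS, map_add, map_smul, h.r,
      map_add, map_smul, LinearMap.add_apply, LinearMap.smul_apply, smul_eq_mul, h.LS, A.adLS]
  have r1 : A.E (A.LS (A.BB (A.LDD (Ei (Ei c))))) = A.LS (A.BB (A.LDD (Ei c))) := by
    rw [← h.LDD, ← h.BB, ← h.LS, h.l]
  have r2 : A.E (A.E (A.LDD (A.LS (Ei (Ei c))))) = A.LDD (A.LS c) := by
    rw [← h.LS, ← h.LDD, h.l, ← h.LS, ← h.LDD, h.l]
  have r3 : A.ip (A.E (A.L2 (A.Ds2 (A.D2 (Ei (Ei c)))))) c = A.ip (Ei (A.L2 (A.D2 c))) (A.D2 c) := by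
    rw [← h.D2, ← h.Ds2, ← h.L2, h.l, ← h.D2, ← h.Ds2, ← h.L2, ← A.Ds2L2, h.ad, A.adDs2, ← h.D2,
      ← h.ad]
  have r4 : A.E (A.E (A.L2 (A.BB (Ei (Ei c))))) = A.L2 (A.BB c) := by
    rw [← h.BB, ← h.L2, h.l, ← h.BB, ← h.L2, h.l]
  have r5 : A.E (A.LS (A.LDD (Ei c))) = A.LS (A.LDD c) := by
    rw [← h.LDD, ← h.LS, h.l]
  have r6 : A.E (A.L2 (A.BB (Ei c))) = A.L2 (A.BB c) := by
    rw [← h.BB, ← h.L2, h.l]
  have r7 : A.E (A.LDD (A.LS (Ei c))) = A.LDD (A.LS c) := by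
    rw [← h.LS, ← h.LDD, h.l]
  rw [e1, e2, e3, key, k2, r1, r2, r4, r5, r6, r7]
  simp only [map_add, map_smul, LinearMap.add_apply, LinearMap.smul_apply, smul_eq_mul, q2, q3, r3]
  have s1 : A.ip (A.LS (A.LDD c)) c = A.ip (A.LDD c) (A.LDD c) := by rw [A.adLS]
  rw [s1]
  ring

/-- step (d) -/
lemma st_d (c : F) : A.ip (A.LDD c) (Ei (A.LDD (A.D2 c))) - A.ip (Ei (A.LDD (A.LS c))) (A.D2 c) +
    2 * A.ip (A.L2 (A.Ds2 c)) c = 0 := by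
  have e1 : A.ip (A.LDD c) (Ei (A.LDD (A.D2 c))) = A.ip (Ei (A.LS (A.LDD c))) (A.D2 c) := by
    rw [h.LDD, ← A.adLS, h.ad]
  have e2 : A.ip (A.L2 (A.Ds2 c)) c = A.ip (A.L2 c) (A.D2 c) := by
    rw [← A.Ds2L2, A.adDs2]
  rw [A.LDDLS, map_add, map_smul, h.r, map_add, map_smul, LinearMap.add_apply,
    LinearMap.smul_apply, smul_eq_mul, e1, e2]
  ring

/-- step (e) -/
lemma st_e (b c : F) : A.ip (A.Ds2 b) (Ei (A.LS (A.Ds2 c))) - A.ip (Ei (A.LDD (A.D2 b))) (A.D2 c) =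
    8 * A.ip (A.BB b) (A.LS c) + 4 * A.ip (A.D2 b) (A.LDD c) := by
  have e1 : A.ip (A.Ds2 b) (Ei (A.LS (A.Ds2 c))) = A.ip (Ei (A.D2 (A.LDD (A.Ds2 b)))) c := by
    rw [← h.ad, ← A.adLDD, ← A.adD2, h.D2, h.LDD]
  have e2 : A.ip (Ei (A.LDD (A.D2 b))) (A.D2 c) = A.ip (Ei (A.Ds2 (A.LDD (A.D2 b)))) c := by
    rw [← A.adDs2, h.Ds2]
  have e3 : A.D2 (A.LDD (A.Ds2 b)) = A.Ds2 (A.LDD (A.D2 b)) + (8 : ℝ) • A.E (A.BB (A.LDD b)) +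
      (4 : ℝ) • A.E (A.LS (A.D2 b)) + (16 : ℝ) • A.E (A.E (A.LDD b)) := by
    rw [A.LDDDs2, map_add, map_smul, ← A.ED2, A.D2LS, A.D2Ds2, A.D2LDD, map_add, map_smul]
    module
  have e4 : A.ip (A.BB b) (A.LS c) = A.ip (A.BB (A.LDD b)) c + 2 * A.ip (A.E (A.LDD b)) c := by
    rw [← A.adLDD, A.LDDBB, map_add, map_smul, LinearMap.add_apply, LinearMap.smul_apply,
      smul_eq_mul]
  rw [e1, e2, e3, e4, ← A.adLS (A.D2 b)]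
  simp only [map_add, map_smul, LinearMap.add_apply, LinearMap.smul_apply, smul_eq_mul, h.r]
  ring

end Inv

/-! ### the identity -/

section
variable (Ei : F →ₗ[ℝ] F)

/-- `R = D . K`. -/
def R : F →ₗ[ℝ] F := A.Dv + (1 / 2 : ℝ) • (Ei ∘ₗ A.LDD ∘ₗ A.D2)
/-- `R^*`. -/
def Rs : F →ₗ[ℝ] F := A.Dsvs + (1 / 2 : ℝ) • (Ei ∘ₗ A.LS ∘ₗ A.Ds2)
/-- `b' = b + (1 / 2E) l.D^* c`. -/
def bp (b c : F) : F := b + (1 / 2 : ℝ) • Ei (A.LS c)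

lemma R_apply (x : F) : A.R Ei x = A.Dv x + (1 / 2 : ℝ) • Ei (A.LDD (A.D2 x)) := rfl
lemma Rs_apply (x : F) : A.Rs Ei x = A.Dsvs x + (1 / 2 : ℝ) • Ei (A.LS (A.Ds2 x)) := rfl

/-- The convexity terms. -/
def cv (c : F) : ℝ :=
  ∑ i, ∑ j, A.ip (A.C i j (A.D i c) + (4 : ℝ) • A.LL i j (A.D i c)) (A.D j c)
/-- The terms with `l''`, zero for linear `l`. -/
def LT (c : F) : ℝ := A.ip (Ei (∑ j, ∑ i, A.D j (A.LL j i (A.Ds i (A.Ds2 c))))) c -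
  4 * A.ip (∑ j, ∑ i, A.Ds j (A.LL j i (A.Ds i c))) c
/-- First order error terms. -/
def Er (b c : F) : ℝ := 8 * A.ip (A.LDD (A.bp Ei b c)) (A.D2 c) +
  2 * A.ip (Ei (A.D2 c)) (A.LDD (A.LDD c)) + 2 * A.ip (A.D2 c) (A.Lv c) +
  (1 / 2) * A.ip (Ei (A.L2 (A.D2 c))) (A.D2 c) + A.LT Ei c

end

lemma Inv.Q_bp {A : Osc ι F} {Ei : F →ₗ[ℝ] F} (h : A.Inv Ei) (b c : F) : A.Q (A.bp Ei b c) c =
    A.Q b c + 8 * A.ip (A.BB b) (A.LS c) + 2 * A.ip (Ei (A.BB (A.LS c))) (A.LS c) +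
      4 * ∑ j, A.ip (A.Ds j (A.LS c)) (A.vs j c) := by
  have e1 : A.ip (A.E (A.BB (A.bp Ei b c))) (A.bp Ei b c) = A.ip (A.E (A.BB b)) b +
      A.ip (A.BB b) (A.LS c) + (1 / 4) * A.ip (Ei (A.BB (A.LS c))) (A.LS c) := by
    have k1 : A.ip (A.BB (A.LS c)) b = A.ip (A.BB b) (A.LS c) := by
      rw [A.adBB, A.symm]
    have k2 : A.ip (A.E (A.BB b)) (Ei (A.LS c)) = A.ip (A.BB b) (A.LS c) := by
      rw [← h.ad, h.r]
    have k3 : A.ip (A.BB (A.LS c)) (Ei (A.LS c)) = A.ip (Ei (A.BB (A.LS c))) (A.LS c) := by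
      rw [h.ad]
    rw [bp]
    simp only [map_add, map_smul, LinearMap.add_apply, LinearMap.smul_apply, smul_eq_mul]
    rw [← h.BB, h.l, k1, k2, k3]
    ring
  have e2 : ∀ j, A.ip (A.E (A.Ds j (A.bp Ei b c))) (A.vs j c) = A.ip (A.E (A.Ds j b)) (A.vs j c) +
      (1 / 2) * A.ip (A.Ds j (A.LS c)) (A.vs j c) := by
    intro j
    rw [bp]
    simp only [map_add, map_smul, LinearMap.add_apply, LinearMap.smul_apply, smul_eq_mul]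
    rw [← h.Ds, h.l]
  rw [Q, Q, e1]
  simp only [e2, sum_add_distrib, ← mul_sum]
  ring

/-- The commutator form. -/
theorem Inv.Qf_eq {A : Osc ι F} {Ei : F →ₗ[ℝ] F} (h : A.Inv Ei) (b c : F) :
    8 * A.ip (A.E (A.BB b)) b + (A.ip (A.Rs Ei c) (A.Rs Ei c) - A.ip (A.R Ei c) (A.R Ei c)) +
      2 * (A.ip (A.Ds2 b) (A.Rs Ei c) - A.ip (A.R Ei b) (A.D2 c)) =
    A.Q (A.bp Ei b c) c + 4 * A.ip (A.Dv c) (A.LDD c) + 4 * A.ip (A.D2 b) (A.LDD c) +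
      8 * A.ip (A.LDD c) (A.LDD c) + A.cv c + A.Er Ei b c := by
  have ha := h.st_a c
  have hb := Inv.st_b (A := A) c
  have hc := h.st_c c
  have hd := h.st_d c
  have he := h.st_e b c
  have hQ := h.Q_bp b c
  have hcross := A.cross b c
  have hR := A.sqR c
  have a1 : A.ip (A.Ds2 b) (A.Dsvs c) = A.ip (A.Dv (A.Ds2 b)) c := by rw [A.adDv]
  have a2 : A.ip (A.Dv b) (A.D2 c) = A.ip (A.Ds2 (A.Dv b)) c := by rw [A.adDs2]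
  have a3 : A.ip (A.LDD (Ei (A.LS c))) (A.D2 c) = A.ip (Ei (A.LDD (A.LS c))) (A.D2 c) := by
    rw [h.LDD]
  have a4 : A.ip (A.LDD c) (A.Dv c) = A.ip (A.Dv c) (A.LDD c) := A.symm _ _
  have a5 : A.ip (Ei (A.LS (A.Ds2 c))) (A.Dsvs c) = A.ip (A.Dsvs c) (Ei (A.LS (A.Ds2 c))) :=
    A.symm _ _
  have a6 : A.ip (Ei (A.LDD (A.D2 c))) (A.Dv c) = A.ip (A.Dv c) (Ei (A.LDD (A.D2 c))) :=
    A.symm _ _
  have a7 : A.ip (A.D2 c) (A.Lv c) = A.ip (A.Lv c) (A.D2 c) := A.symm _ _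
  rw [hQ]
  simp only [R_apply, Rs_apply, Er, LT, cv, bp, map_add, map_smul, LinearMap.add_apply,
    LinearMap.smul_apply, smul_eq_mul, Q, a1, a2, a3, a4, a5, a6, a7] at *
  linear_combination hR + ha + hc + 4 * hd + he + 2 * hcross - 4 * hb

section
variable {A}
variable {Ei : F →ₗ[ℝ] F} (h : A.Inv Ei)
include h

/-- THE IDENTITY, for arbitrary operators `K2`, `K2s` (`K^2` and its adjoint). -/
theorem Inv.T_eq (K2 K2s : F →ₗ[ℝ] F) (b c : F) :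
    A.ip (A.Ds2 b + (1 / 4 : ℝ) • K2s b + A.Rs Ei c) (A.Ds2 b + (1 / 4 : ℝ) • K2s b + A.Rs Ei c) +
    A.ip (A.R Ei b - (A.D2 c + (1 / 4 : ℝ) • K2 c)) (A.R Ei b - (A.D2 c + (1 / 4 : ℝ) • K2 c)) =
    A.ip (A.D2 b + (1 / 4 : ℝ) • K2 b + (2 : ℝ) • A.LDD c)
      (A.D2 b + (1 / 4 : ℝ) • K2 b + (2 : ℝ) • A.LDD c) +
    A.ip (A.R Ei b) (A.R Ei b) +
    A.ip (A.D2 c + (1 / 4 : ℝ) • K2 c) (A.D2 c + (1 / 4 : ℝ) • K2 c) +
    A.ip (A.R Ei c + (2 : ℝ) • A.LDD c) (A.R Ei c + (2 : ℝ) • A.LDD c) +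
    A.Q (A.bp Ei b c) c + A.cv c + A.Er Ei b c -
    A.ip (K2 b) (A.LDD c) - 2 * A.ip (Ei (A.LDD (A.D2 c))) (A.LDD c) +
    ((1 / 2) * A.ip (A.Ds2 b) (K2s b) + (1 / 16) * A.ip (K2s b) (K2s b) -
      (1 / 2) * A.ip (A.D2 b) (K2 b) - (1 / 16) * A.ip (K2 b) (K2 b)) +
    (1 / 2) * (A.ip (K2s b) (A.Rs Ei c) - A.ip (A.R Ei b) (K2 c)) := by
  have hQ := h.Qf_eq b c
  have h1 : A.ip (A.Ds2 b) (A.Ds2 b) = A.ip (A.D2 b) (A.D2 b) + 8 * A.ip (A.E (A.BB b)) b := by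
    rw [← A.adD2, A.D2Ds2]
    simp only [map_add, map_smul, LinearMap.add_apply, LinearMap.smul_apply, smul_eq_mul, A.adDs2]
  have s1 : A.ip (A.Rs Ei c) (A.Ds2 b) = A.ip (A.Ds2 b) (A.Rs Ei c) := A.symm _ _
  have s2 : A.ip (K2s b) (A.Ds2 b) = A.ip (A.Ds2 b) (K2s b) := A.symm _ _
  have s3 : A.ip (A.Rs Ei c) (K2s b) = A.ip (K2s b) (A.Rs Ei c) := A.symm _ _
  have s4 : A.ip (A.D2 c) (A.R Ei b) = A.ip (A.R Ei b) (A.D2 c) := A.symm _ _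
  have s5 : A.ip (K2 c) (A.R Ei b) = A.ip (A.R Ei b) (K2 c) := A.symm _ _
  have s6 : A.ip (K2 b) (A.D2 b) = A.ip (A.D2 b) (K2 b) := A.symm _ _
  have s7 : A.ip (A.LDD c) (A.D2 b) = A.ip (A.D2 b) (A.LDD c) := A.symm _ _
  have s8 : A.ip (A.LDD c) (K2 b) = A.ip (K2 b) (A.LDD c) := A.symm _ _
  have s9 : A.ip (A.LDD c) (A.R Ei c) = A.ip (A.R Ei c) (A.LDD c) := A.symm _ _
  have s10 : A.ip (A.R Ei c) (A.LDD c) = A.ip (A.Dv c) (A.LDD c) +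
      (1 / 2) * A.ip (Ei (A.LDD (A.D2 c))) (A.LDD c) := by
    rw [R_apply, map_add, map_smul, LinearMap.add_apply, LinearMap.smul_apply, smul_eq_mul]
  simp only [map_add, map_sub, map_smul, LinearMap.add_apply, LinearMap.sub_apply,
    LinearMap.smul_apply, smul_eq_mul, s1, s2, s3, s4, s5, s6, s7, s8, s9]
  linear_combination hQ + h1 - 4 * s10

end

end Osc

end Vale.Agent.P088.HY.H593W
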