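import Vale.Agent.P088.R2.H593.W.Core

/-!
# P088, local step: positivity and stability of the quadratic form `Q`
-/

noncomputable section

namespace Vale.Agent.P088.HY.H593W

open Finset

namespace Osc

variable {ι F : Type*} [Fintype ι] [DecidableEq ι] [AddCommGroup F] [Module ℝ F]
variable (A : Osc ι F)

/-- Positivity of the inner product and of `E`. -/
structure Pos : Prop where
  p0 : ∀ x, 0 ≤ A.ip x x
  pE : ∀ x, 0 ≤ A.ip (A.E x) x

/-- `T` is a matrix of multiplications by functions of `p`, bounded by its trace, with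
nonnegative diagonal entries. -/
structure PM (T : ι → ι → F →ₗ[ℝ] F) : Prop where
  ad : ∀ i j x y, A.ip (T i j x) y = A.ip x (T i j y)
  TD : ∀ i j k x, T i j (A.D k x) = A.D k (T i j x)
  TDs : ∀ i j k x, T i j (A.Ds k x) = A.Ds k (T i j x)
  TE : ∀ i j x, A.E (T i j x) = T i j (A.E x)
  t0 : ∀ x : ι → F, ∑ i, ∑ j, A.ip (T j i (x i)) (x j) ≤ ∑ i, ∑ k, A.ip (T k k (x i)) (x i)
  t1 : ∀ x : ι → F, ∑ i, ∑ j, A.ip (A.E (T j i (x i))) (x j) ≤
    ∑ i, ∑ k, A.ip (A.E (T k k (x i))) (x i)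
  d0 : ∀ k x, 0 ≤ A.ip (T k k x) x
  d1 : ∀ k x, 0 ≤ A.ip (A.E (T k k x)) x

/-- The matrix `T`, composed with `M`, is bounded by its trace. -/
def Dom (T : ι → ι → F →ₗ[ℝ] F) (M : F →ₗ[ℝ] F) : Prop :=
  ∀ x : ι → F, ∑ i, ∑ j, A.ip (M (T j i (x i))) (x j) ≤ ∑ i, ∑ k, A.ip (M (T k k (x i))) (x i)

variable {A}

lemma Dom.add {T : ι → ι → F →ₗ[ℝ] F} {M M' : F →ₗ[ℝ] F} (h : A.Dom T M) (h' : A.Dom T M') :
    A.Dom T (M + M') := by
  intro x
  simp only [LinearMap.add_apply, map_add, sum_add_distrib]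
  exact add_le_add (h x) (h' x)

lemma Dom.smul {T : ι → ι → F →ₗ[ℝ] F} {M : F →ₗ[ℝ] F} (h : A.Dom T M) {r : ℝ} (hr : 0 ≤ r) :
    A.Dom T (r • M) := by
  intro x
  simp only [LinearMap.smul_apply, map_smul, smul_eq_mul, ← mul_sum]
  exact mul_le_mul_of_nonneg_left (h x) hr

omit [DecidableEq ι] in
lemma sum3 (f : ι → ι → ι → ℝ) : ∑ i, ∑ j, ∑ k, f i j k = ∑ k, ∑ i, ∑ j, f i j k := by
  rw [sum_congr rfl fun i _ => sum_comm (f := fun j k => f i j k)]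
  exact sum_comm

namespace PM

variable {T : ι → ι → F →ₗ[ℝ] F} (hT : A.PM T)
include hT

lemma TN (i j : ι) (x : F) : T i j (A.N x) = A.N (T i j x) := by
  simp only [N_apply, map_sum, hT.TDs, hT.TD]

lemma TB2 (i j : ι) (x : F) : T i j (A.B2 x) = A.B2 (T i j x) := by
  simp only [B2_apply, map_add, map_smul, hT.TN, hT.TE]

lemma TBB (i j : ι) (x : F) : T i j (A.BB x) = A.BB (T i j x) := by
  simp only [BB_apply, map_add, map_smul, hT.TN, hT.TE]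

lemma dom_EE : A.Dom T (A.E ∘ₗ A.E) := by
  intro x
  have h := hT.t0 fun i => A.E (x i)
  have e : ∀ i j x y, A.ip ((A.E ∘ₗ A.E) (T i j x)) y = A.ip (T i j (A.E x)) (A.E y) := by
    intro i j x y
    rw [LinearMap.comp_apply, A.adE, hT.TE]
  simp only [e]
  exact h

lemma e_EN (i j : ι) (x y : F) : A.ip ((A.E ∘ₗ A.N) (T i j x)) y =
    ∑ k, A.ip (A.E (T i j (A.D k x))) (A.D k y) := by
  rw [LinearMap.comp_apply, N_apply, map_sum, map_sum, LinearMap.sum_apply]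
  exact sum_congr rfl fun k _ => by rw [A.EDs, A.adDs, ← hT.TD]

lemma dom_EN : A.Dom T (A.E ∘ₗ A.N) := by
  intro x
  have h : ∑ k, ∑ i, ∑ j, A.ip (A.E (T j i (A.D k (x i)))) (A.D k (x j)) ≤
      ∑ k, ∑ i, ∑ l, A.ip (A.E (T l l (A.D k (x i)))) (A.D k (x i)) :=
    sum_le_sum fun k _ => hT.t1 fun i => A.D k (x i)
  simp only [hT.e_EN]
  rw [sum3 fun i j k => A.ip (A.E (T j i (A.D k (x i)))) (A.D k (x j)),
    sum3 fun i l k => A.ip (A.E (T l l (A.D k (x i)))) (A.D k (x i))]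
  exact h

lemma dom_NN : A.Dom T (A.N ∘ₗ A.N) := by
  intro x
  have h := hT.t0 fun i => A.N (x i)
  have e : ∀ i j x y, A.ip ((A.N ∘ₗ A.N) (T i j x)) y = A.ip (T i j (A.N x)) (A.N y) := by
    intro i j x y
    rw [LinearMap.comp_apply, A.adN, hT.TN]
  simp only [e]
  exact h

lemma dom_EBB : A.Dom T (A.E ∘ₗ A.BB) := by
  have h := hT.dom_EN.add (hT.dom_EE.smul (r := (Fintype.card ι : ℝ)) (by positivity))
  have e : A.E ∘ₗ A.BB = A.E ∘ₗ A.N + (Fintype.card ι : ℝ) • (A.E ∘ₗ A.E) := by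
    ext x
    simp only [LinearMap.comp_apply, LinearMap.add_apply, LinearMap.smul_apply, BB_apply, map_add,
      map_smul]
  rw [e]
  exact h

/-- `E (BB + 4 E)`. -/
lemma dom_EB4 : A.Dom T (A.E ∘ₗ (A.BB + (4 : ℝ) • A.E)) := by
  have h := hT.dom_EBB.add (hT.dom_EE.smul (r := 4) (by norm_num))
  have e : A.E ∘ₗ (A.BB + (4 : ℝ) • A.E) = A.E ∘ₗ A.BB + (4 : ℝ) • (A.E ∘ₗ A.E) := by
    ext x
    simp only [LinearMap.comp_apply, LinearMap.add_apply, LinearMap.smul_apply, map_add,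
      map_smul]
  rw [e]
  exact h

/-- `BB (BB + 4 E)`. -/
lemma dom_BB4 : A.Dom T (A.BB ∘ₗ (A.BB + (4 : ℝ) • A.E)) := by
  have h := (hT.dom_NN.add (hT.dom_EN.smul (r := 2 * (Fintype.card ι : ℝ) + 4) (by positivity))).add
    (hT.dom_EE.smul (r := (Fintype.card ι : ℝ) * ((Fintype.card ι : ℝ) + 4)) (by positivity))
  have e : A.BB ∘ₗ (A.BB + (4 : ℝ) • A.E) = A.N ∘ₗ A.N +
      (2 * (Fintype.card ι : ℝ) + 4) • (A.E ∘ₗ A.N) +
      ((Fintype.card ι : ℝ) * ((Fintype.card ι : ℝ) + 4)) • (A.E ∘ₗ A.E) := by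
    ext x
    simp only [LinearMap.comp_apply, LinearMap.add_apply, LinearMap.smul_apply, map_add,
      map_smul, BB_apply, A.EN]
    module
  rw [e]
  exact h

/-- nonnegativity of `E^2 B2 T_kk`. -/
lemma e_EEB2 (i j : ι) (x y : F) : A.ip (A.E (A.E (A.B2 (T i j x)))) y =
    ∑ k, A.ip (T i j (A.D k (A.E x))) (A.D k (A.E y)) +
      ((Fintype.card ι : ℝ) - 2) * A.ip (A.E (T i j (A.E x))) (A.E y) := by
  rw [A.adE, A.EB2, hT.TE, B2_apply, map_add, map_smul, LinearMap.add_apply,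
    LinearMap.smul_apply, smul_eq_mul, N_apply, map_sum, LinearMap.sum_apply]
  congr 1
  exact sum_congr rfl fun k _ => by rw [A.adDs, ← hT.TD]

lemma e_ENT (k l : ι) (x : F) : A.ip (A.E (A.E (A.N (T k l x)))) x =
    ∑ i, A.ip (T k l (A.D i (A.E x))) (A.D i (A.E x)) := by
  rw [A.adE, A.EN, hT.TE, N_apply, map_sum, LinearMap.sum_apply]
  exact sum_congr rfl fun i _ => by rw [A.adDs, ← hT.TD]

lemma EEB2_nonneg (hn : 2 ≤ Fintype.card ι) (k : ι) (x : F) :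
    0 ≤ A.ip (A.E (A.E (A.B2 (T k k x)))) x := by
  have h2 : (2 : ℝ) ≤ Fintype.card ι := by exact_mod_cast hn
  rw [hT.e_EEB2]
  exact add_nonneg (sum_nonneg fun i _ => hT.d0 k _) (mul_nonneg (by linarith) (hT.d1 k _))

/-- `E^2 N T <= E^2 B2 T`. -/
lemma EEN_le (hn : 2 ≤ Fintype.card ι) (k : ι) (x : F) :
    A.ip (A.E (A.E (A.N (T k k x)))) x ≤ A.ip (A.E (A.E (A.B2 (T k k x)))) x := by
  have h2 : (2 : ℝ) ≤ Fintype.card ι := by exact_mod_cast hn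
  rw [hT.e_EEB2, hT.e_ENT]
  have := mul_nonneg (sub_nonneg.2 h2) (hT.d1 k (A.E x))
  linarith

lemma EB2B2_nonneg (k : ι) (x : F) : 0 ≤ A.ip (A.E (A.B2 (A.B2 (T k k x)))) x := by
  rw [A.EB2, A.adB2, ← hT.TB2]
  exact hT.d1 k _

/-- nonnegativity of `E B2 (B2 + 4 E) T_kk`. -/
lemma EB24_nonneg (hn : 2 ≤ Fintype.card ι) (k : ι) (x : F) :
    0 ≤ A.ip (A.E (A.B2 (A.B2 (T k k x) + (4 : ℝ) • A.E (T k k x)))) x := by
  have h1 := hT.EB2B2_nonneg k x
  have h2 := hT.EEB2_nonneg hn k x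
  rw [map_add, map_smul, map_add, map_smul, map_add, map_smul, LinearMap.add_apply,
    LinearMap.smul_apply, smul_eq_mul, ← A.EB2]
  linarith

/-- `D_j^* E BB T D_i` against `E N B2 T`. -/
lemma grad_EBB (f : F) : ∑ i, ∑ j, A.ip (A.E (A.BB (T j i (A.D i f)))) (A.D j f) ≤
    ∑ k, A.ip (A.E (A.N (A.B2 (T k k f)))) f := by
  refine (hT.dom_EBB fun i => A.D i f).trans (le_of_eq ?_)
  rw [sum_comm]
  refine sum_congr rfl fun k _ => ?_
  rw [N_apply, map_sum, map_sum, LinearMap.sum_apply]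
  refine sum_congr rfl fun i _ => ?_
  rw [LinearMap.comp_apply, hT.TD, ← A.DB2, A.EDs, A.adDs]

lemma grad_EE (f : F) : ∑ i, ∑ j, A.ip (A.E (A.E (T j i (A.D i f)))) (A.D j f) ≤
    ∑ k, A.ip (A.E (A.E (A.N (T k k f)))) f := by
  refine (hT.dom_EE fun i => A.D i f).trans (le_of_eq ?_)
  rw [sum_comm]
  refine sum_congr rfl fun k _ => ?_
  rw [N_apply, map_sum, map_sum, map_sum, LinearMap.sum_apply]
  refine sum_congr rfl fun i _ => ?_
  rw [LinearMap.comp_apply, hT.TD, A.EDs, A.EDs, A.adDs]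

omit hT in
lemma DB4 (i : ι) (x : F) : A.BB (A.D i x) + (4 : ℝ) • A.E (A.D i x) =
    A.D i (A.B2 x + (4 : ℝ) • A.E x) := by
  rw [map_add, map_smul, A.DB2, A.ED]

lemma grad_EB4 (f : F) : ∑ i, ∑ j, A.ip (A.E (A.BB (T j i (A.D i f)) +
      (4 : ℝ) • A.E (T j i (A.D i f)))) (A.D j f) ≤
    ∑ k, A.ip (A.E (A.N (A.B2 (T k k f) + (4 : ℝ) • A.E (T k k f)))) f := by
  refine (hT.dom_EB4 fun i => A.D i f).trans (le_of_eq ?_)
  rw [sum_comm]
  refine sum_congr rfl fun k _ => ?_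
  rw [N_apply, map_sum, map_sum, LinearMap.sum_apply]
  refine sum_congr rfl fun i _ => ?_
  rw [LinearMap.comp_apply, LinearMap.add_apply, LinearMap.smul_apply, hT.TD, DB4, A.EDs,
    A.adDs]

lemma grad_BB4 (f : F) : ∑ i, ∑ j, A.ip (A.BB (A.BB (T j i (A.D i f)) +
      (4 : ℝ) • A.E (T j i (A.D i f)))) (A.D j f) ≤
    ∑ k, A.ip (A.N (A.B2 (A.B2 (T k k f) + (4 : ℝ) • A.E (T k k f)))) f := by
  refine (hT.dom_BB4 fun i => A.D i f).trans (le_of_eq ?_)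
  rw [sum_comm]
  refine sum_congr rfl fun k _ => ?_
  rw [N_apply, map_sum, LinearMap.sum_apply]
  refine sum_congr rfl fun i _ => ?_
  rw [LinearMap.comp_apply, LinearMap.add_apply, LinearMap.smul_apply, hT.TD, DB4, ← A.DB2,
    A.adDs]

end PM

/-! ### the lower bound -/

section
variable (P : A.Pos)
include P

lemma Pos.EE (x : F) : 0 ≤ A.ip (A.E (A.E x)) x := by
  rw [A.adE]; exact P.p0 _

lemma Pos.EN (x : F) : 0 ≤ A.ip (A.E (A.N x)) x := by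
  rw [N_apply, map_sum, map_sum, LinearMap.sum_apply]
  exact sum_nonneg fun i _ => by rw [A.EDs, A.adDs]; exact P.pE _

lemma Pos.EBB (x : F) : (Fintype.card ι : ℝ) * A.ip (A.E x) (A.E x) ≤ A.ip (A.E (A.BB x)) x := by
  have h1 := P.EN x
  rw [BB_apply, map_add, map_smul, map_add, map_smul, LinearMap.add_apply, LinearMap.smul_apply,
    smul_eq_mul, A.adE (A.E x)]
  linarith

lemma Pos.EBB0 (x : F) : 0 ≤ A.ip (A.E (A.BB x)) x := by
  have h1 := P.EBB x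
  have h2 := mul_nonneg (Nat.cast_nonneg (α := ℝ) (Fintype.card ι)) (P.p0 (A.E x))
  linarith

lemma Pos.EEN (x : F) : 0 ≤ A.ip (A.E (A.E (A.N x))) x := by
  rw [N_apply, map_sum, map_sum, map_sum, LinearMap.sum_apply]
  exact sum_nonneg fun i _ => by rw [A.EDs, A.EDs, A.adDs]; exact P.EE _

lemma Pos.EEB2 (hn : 2 ≤ Fintype.card ι) (x : F) :
    A.ip (A.E (A.E (A.N x))) x ≤ A.ip (A.E (A.E (A.B2 x))) x := by
  have h2 : (2 : ℝ) ≤ Fintype.card ι := by exact_mod_cast hn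
  have h3 := P.pE (A.E x)
  rw [B2_apply, map_add, map_smul, map_add, map_smul, map_add, map_smul, LinearMap.add_apply,
    LinearMap.smul_apply, smul_eq_mul, A.adE (A.E (A.E x))]
  have := mul_nonneg (sub_nonneg.2 h2) h3
  linarith

end

/-- The bracket of `Q_eq`. -/
def Br (A : Osc ι F) (f : F) : ℝ :=
  ∑ j, A.ip (A.E (A.B2 (A.B2 (A.C j j f + (2 : ℝ) • A.LL j j f)))) f -
    ∑ i, ∑ j, A.ip (A.E (A.BB (A.C j i (A.D i f) + (4 : ℝ) • A.LL j i (A.D i f)))) (A.D j f)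

/-- `Phi`-gain. -/
def gP (A : Osc ι F) (Ph : ι → ι → F →ₗ[ℝ] F) (f : F) : ℝ :=
  ∑ k, A.ip (A.E (A.E (A.B2 (Ph k k f)))) f

/-- `l''`-gain. -/
def gL (A : Osc ι F) (f : F) : ℝ :=
  ∑ k, A.ip (A.E (A.B2 (A.B2 (A.LL k k f) + (4 : ℝ) • A.E (A.LL k k f)))) f

section
variable {Ph : ι → ι → F →ₗ[ℝ] F} (hPh : A.PM Ph) (hLL : A.PM A.LL)
  (hC : ∀ i j x, A.E (A.C i j x) = (2 : ℝ) • A.E (Ph i j x) + A.LL i j (A.BB x))
include hPh hLL hC

theorem Br_lower (f : F) :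
    2 * ((Fintype.card ι : ℝ) - 2) * A.gP Ph f + ((Fintype.card ι : ℝ) - 2) * A.gL f ≤ A.Br f := by
  have h1 : ∀ j, A.ip (A.E (A.B2 (A.B2 (A.C j j f + (2 : ℝ) • A.LL j j f)))) f =
      2 * A.ip (A.E (A.B2 (A.B2 (Ph j j f)))) f +
        A.ip (A.B2 (A.B2 (A.B2 (A.LL j j f) + (4 : ℝ) • A.E (A.LL j j f)))) f := by
    intro j
    have e : A.E (A.B2 (A.B2 (A.C j j f + (2 : ℝ) • A.LL j j f))) =
        (2 : ℝ) • A.E (A.B2 (A.B2 (Ph j j f))) +
          A.B2 (A.B2 (A.B2 (A.LL j j f) + (4 : ℝ) • A.E (A.LL j j f))) := by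
      rw [A.EB2, A.EB2, map_add, map_smul, hC, hLL.TBB, A.EB2, A.EB2, BB_apply, A.B2_apply (A.LL j j f)]
      simp only [map_add, map_smul]
      module
    rw [e, map_add, map_smul, LinearMap.add_apply, LinearMap.smul_apply, smul_eq_mul]
  have h2 : ∀ i j, A.ip (A.E (A.BB (A.C j i (A.D i f) + (4 : ℝ) • A.LL j i (A.D i f)))) (A.D j f) =
      2 * A.ip (A.E (A.BB (Ph j i (A.D i f)))) (A.D j f) +
        A.ip (A.BB (A.BB (A.LL j i (A.D i f)) + (4 : ℝ) • A.E (A.LL j i (A.D i f)))) (A.D j f) := by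
    intro i j
    have e : A.E (A.BB (A.C j i (A.D i f) + (4 : ℝ) • A.LL j i (A.D i f))) =
        (2 : ℝ) • A.E (A.BB (Ph j i (A.D i f))) +
          A.BB (A.BB (A.LL j i (A.D i f)) + (4 : ℝ) • A.E (A.LL j i (A.D i f))) := by
      rw [A.EBB, map_add, map_smul, hC, hLL.TBB, A.EBB]
      simp only [map_add, map_smul]
      module
    rw [e, map_add, map_smul, LinearMap.add_apply, LinearMap.smul_apply, smul_eq_mul]
  have h3 := hPh.grad_EBB f
  have h4 := hLL.grad_BB4 f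
  have h5 : ∑ k, A.ip (A.E (A.B2 (A.B2 (Ph k k f)))) f =
      ∑ k, A.ip (A.E (A.N (A.B2 (Ph k k f)))) f + ((Fintype.card ι : ℝ) - 2) * A.gP Ph f := by
    rw [gP, mul_sum, ← sum_add_distrib]
    refine sum_congr rfl fun k _ => ?_
    rw [A.B2_apply (A.B2 (Ph k k f)), map_add, map_smul, map_add, map_smul, LinearMap.add_apply,
      LinearMap.smul_apply, smul_eq_mul]
  have h6 : ∑ k, A.ip (A.B2 (A.B2 (A.B2 (A.LL k k f) + (4 : ℝ) • A.E (A.LL k k f)))) f =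
      ∑ k, A.ip (A.N (A.B2 (A.B2 (A.LL k k f) + (4 : ℝ) • A.E (A.LL k k f)))) f +
        ((Fintype.card ι : ℝ) - 2) * A.gL f := by
    rw [gL, mul_sum, ← sum_add_distrib]
    refine sum_congr rfl fun k _ => ?_
    rw [A.B2_apply (A.B2 _), map_add, map_smul, LinearMap.add_apply,
      LinearMap.smul_apply, smul_eq_mul]
  rw [Br]
  simp only [h1, h2, sum_add_distrib, ← mul_sum]
  rw [h5, h6]
  linarith

/-- Lower bound of `Q` for convex `phi`, `l`. -/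
theorem Q_lower (b f : F) :
    8 * A.ip (A.E (A.BB (b + (1 / 2 : ℝ) • A.vsD f))) (b + (1 / 2 : ℝ) • A.vsD f) +
    2 * ((Fintype.card ι : ℝ) - 2) * ∑ j, A.ip (A.E (A.E (A.B2 (A.w j f)))) (A.w j f) +
    ∑ i, ∑ j, A.ip (A.E (A.BB (A.D i (A.w j f) - A.D j (A.w i f))))
        (A.D i (A.w j f) - A.D j (A.w i f)) +
    4 * ((Fintype.card ι : ℝ) - 2) * A.gP Ph f + 2 * ((Fintype.card ι : ℝ) - 2) * A.gL f ≤
    A.Q b (A.B2 f) := by
  have h := Br_lower hPh hLL hC f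
  rw [A.Q_eq]
  change _ ≤ _ + 2 * A.Br f
  linarith

end

lemma vEE (i : ι) (x : F) : A.v i (A.E (A.E x)) = A.E (A.E (A.w i x)) := by
  simp only [A.vE, w_apply, map_add, map_smul, ← A.EL]
  module

lemma vsD_EE (f : F) : A.ip (A.E (A.E (A.vsD f))) (A.vsD f) =
    ∑ j, A.ip (A.E (A.E (A.N (A.w j f)))) (A.w j f) -
      (1 / 2) * ∑ i, ∑ j, A.ip (A.E (A.E (A.D i (A.w j f) - A.D j (A.w i f))))
        (A.D i (A.w j f) - A.D j (A.w i f)) +
      ∑ i, ∑ j, A.ip (A.E (A.E (A.C j i (A.D i f) + (4 : ℝ) • A.LL j i (A.D i f)))) (A.D j f) := by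
  set M : F →ₗ[ℝ] F := A.E ∘ₗ A.E with hM
  have hMa : ∀ x, A.E (A.E x) = M x := fun x => rfl
  have adM : ∀ x y, A.ip (M x) y = A.ip x (M y) := by
    intro x y
    rw [← hMa, ← hMa, A.adE, A.adE]
  have vM : ∀ j x, A.v j (M x) = M (A.w j x) := fun j x => A.vEE j x
  have h1 : A.ip (M (A.vsD f)) (A.vsD f) =
      ∑ i, ∑ j, A.ip (M (A.w j (A.vs i (A.D i f)))) (A.D j f) := by
    rw [vsD_apply]
    simp only [map_sum, LinearMap.sum_apply, ← A.adv, vM]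
    exact sum_comm
  have h2 : ∀ i j x, A.w j (A.vs i x) = A.vs i (A.w j x) + (A.C j i x + (4 : ℝ) • A.LL j i x) := by
    intro i j x
    simp only [w_apply, map_add, map_smul, A.vvs, A.Lvs, A.LLs i j]
    module
  have h3 : ∀ i x y, A.ip (M (A.vs i x)) y = A.ip (M x) (A.w i y) := by
    intro i x y
    rw [adM, A.advs, vM, adM]
  have h4 : ∀ i j x, A.w j (A.D i x) = A.D i (A.w j x) := by
    intro i j x
    simp only [w_apply, map_add, map_smul, A.vD, A.LD]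
  have h5 : ∀ i j, A.ip (M (A.w j (A.vs i (A.D i f)))) (A.D j f) =
      A.ip (M (A.D i (A.w j f))) (A.D j (A.w i f)) +
        A.ip (M (A.C j i (A.D i f) + (4 : ℝ) • A.LL j i (A.D i f))) (A.D j f) := by
    intro i j
    rw [h2, map_add M, map_add, LinearMap.add_apply, h3, h4, h4]
  have h6 : ∑ i, ∑ j, A.ip (M (A.D i (A.w j f))) (A.D j (A.w i f)) =
      ∑ i, ∑ j, A.ip (M (A.D i (A.w j f))) (A.D i (A.w j f)) -
      (1 / 2) * ∑ i, ∑ j, A.ip (M (A.D i (A.w j f) - A.D j (A.w i f)))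
        (A.D i (A.w j f) - A.D j (A.w i f)) := by
    have e1 : ∀ i j, A.ip (M (A.D i (A.w j f) - A.D j (A.w i f)))
        (A.D i (A.w j f) - A.D j (A.w i f)) =
        A.ip (M (A.D i (A.w j f))) (A.D i (A.w j f)) + A.ip (M (A.D j (A.w i f))) (A.D j (A.w i f)) -
        A.ip (M (A.D i (A.w j f))) (A.D j (A.w i f)) -
        A.ip (M (A.D j (A.w i f))) (A.D i (A.w j f)) := by
      intro i j
      simp only [map_sub, LinearMap.sub_apply]
      ring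
    have e2 := sum_comm (s := univ) (t := univ)
      (f := fun i j => A.ip (M (A.D j (A.w i f))) (A.D j (A.w i f)))
    have e3 := sum_comm (s := univ) (t := univ)
      (f := fun i j => A.ip (M (A.D j (A.w i f))) (A.D i (A.w j f)))
    simp only [e1, sum_add_distrib, sum_sub_distrib]
    rw [e2, e3]
    ring
  have h7 : ∀ j, ∑ i, A.ip (M (A.D i (A.w j f))) (A.D i (A.w j f)) =
      A.ip (A.E (A.E (A.N (A.w j f)))) (A.w j f) := by
    intro j
    rw [N_apply, map_sum, map_sum, map_sum, LinearMap.sum_apply]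
    exact sum_congr rfl fun i _ => by rw [A.EDs, A.EDs, A.adDs]; rfl
  rw [hMa, h1]
  simp only [h5, sum_add_distrib, h6]
  rw [sum_comm (s := univ) (t := univ)
    (f := fun i j => A.ip (M (A.D i (A.w j f))) (A.D i (A.w j f))), sum_congr rfl fun j _ => h7 j]
  rfl

section
variable (P : A.Pos) (hn : 2 ≤ Fintype.card ι)
variable {Ph : ι → ι → F →ₗ[ℝ] F} (hPh : A.PM Ph) (hLL : A.PM A.LL)
  (hC : ∀ i j x, A.E (A.C i j x) = (2 : ℝ) • A.E (Ph i j x) + A.LL i j (A.BB x))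
include P hn hPh hLL hC

/-- `|E v^* D f|^2` is bounded by the sum of squares. -/
theorem vsD_le (f : F) : A.ip (A.E (A.vsD f)) (A.E (A.vsD f)) ≤
    ∑ j, A.ip (A.E (A.E (A.B2 (A.w j f)))) (A.w j f) + 2 * A.gP Ph f + A.gL f := by
  have h1 : ∀ i j, A.ip (A.E (A.E (A.C j i (A.D i f) + (4 : ℝ) • A.LL j i (A.D i f)))) (A.D j f) =
      2 * A.ip (A.E (A.E (Ph j i (A.D i f)))) (A.D j f) +
        A.ip (A.E (A.BB (A.LL j i (A.D i f)) + (4 : ℝ) • A.E (A.LL j i (A.D i f)))) (A.D j f) := by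
    intro i j
    have e : A.E (A.E (A.C j i (A.D i f) + (4 : ℝ) • A.LL j i (A.D i f))) =
        (2 : ℝ) • A.E (A.E (Ph j i (A.D i f))) +
          A.E (A.BB (A.LL j i (A.D i f)) + (4 : ℝ) • A.E (A.LL j i (A.D i f))) := by
      rw [map_add A.E, hC, hLL.TBB]
      simp only [map_add, map_smul]
      module
    rw [e, map_add, map_smul, LinearMap.add_apply, LinearMap.smul_apply, smul_eq_mul]
  have h2 := vsD_EE (A := A) f
  have h3 : 0 ≤ ∑ i, ∑ j, A.ip (A.E (A.E (A.D i (A.w j f) - A.D j (A.w i f))))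
        (A.D i (A.w j f) - A.D j (A.w i f)) :=
    sum_nonneg fun i _ => sum_nonneg fun j _ => P.EE _
  have h4 : ∑ j, A.ip (A.E (A.E (A.N (A.w j f)))) (A.w j f) ≤
      ∑ j, A.ip (A.E (A.E (A.B2 (A.w j f)))) (A.w j f) :=
    sum_le_sum fun j _ => P.EEB2 hn _
  have h5 := hPh.grad_EE f
  have h6 : ∑ k, A.ip (A.E (A.E (A.N (Ph k k f)))) f ≤ A.gP Ph f :=
    sum_le_sum fun k _ => hPh.EEN_le hn k f
  have h7 := hLL.grad_EB4 f
  have h8 : ∑ k, A.ip (A.E (A.N (A.B2 (A.LL k k f) + (4 : ℝ) • A.E (A.LL k k f)))) f ≤ A.gL f := by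
    refine sum_le_sum fun k _ => ?_
    have h2 : (2 : ℝ) ≤ Fintype.card ι := by exact_mod_cast hn
    have e : A.ip (A.E (A.B2 (A.B2 (A.LL k k f) + (4 : ℝ) • A.E (A.LL k k f)))) f =
        A.ip (A.E (A.N (A.B2 (A.LL k k f) + (4 : ℝ) • A.E (A.LL k k f)))) f +
        ((Fintype.card ι : ℝ) - 2) *
          (A.ip (A.E (A.E (A.B2 (A.LL k k f)))) f + 4 * A.ip (A.E (A.LL k k (A.E f))) (A.E f)) := by
      rw [A.B2_apply (_ + _)]
      simp only [map_add, map_smul, LinearMap.add_apply, LinearMap.smul_apply, smul_eq_mul]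
      rw [A.adE (A.E (A.E (A.LL k k f))), hLL.TE k k f]
    rw [e]
    have h9 := hLL.EEB2_nonneg hn k f
    have h10 := hLL.d1 k (A.E f)
    have := mul_nonneg (sub_nonneg.2 h2) (add_nonneg h9 (mul_nonneg (by norm_num : (0 : ℝ) ≤ 4) h10))
    linarith
  rw [← A.adE]
  rw [h2]
  simp only [h1, sum_add_distrib, ← mul_sum]
  linarith

/-- Stability of `Q`. -/
theorem Q_stable (b f : F) :
    4 * ((Fintype.card ι : ℝ) - 2) * A.ip (A.E b) (A.E b) ≤ A.Q b (A.B2 f) := by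
  have h2 : (2 : ℝ) ≤ Fintype.card ι := by exact_mod_cast hn
  have h3 := Q_lower hPh hLL hC b f
  have h4 := vsD_le P hn hPh hLL hC f
  have h5 := P.EBB (b + (1 / 2 : ℝ) • A.vsD f)
  have h6 : 0 ≤ ∑ i, ∑ j, A.ip (A.E (A.BB (A.D i (A.w j f) - A.D j (A.w i f))))
        (A.D i (A.w j f) - A.D j (A.w i f)) :=
    sum_nonneg fun i _ => sum_nonneg fun j _ => P.EBB0 _
  set β := b + (1 / 2 : ℝ) • A.vsD f with hβ
  have h7 : A.ip (A.E b) (A.E b) ≤ 2 * A.ip (A.E β) (A.E β) +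
      (1 / 2) * A.ip (A.E (A.vsD f)) (A.E (A.vsD f)) := by
    have h8 := P.p0 (A.E β + (1 / 2 : ℝ) • A.E (A.vsD f))
    have h9 : A.E b = A.E β - (1 / 2 : ℝ) • A.E (A.vsD f) := by
      rw [hβ, map_add, map_smul]; module
    have h10 := A.symm (A.E (A.vsD f)) (A.E β)
    rw [h9]
    simp only [map_add, map_sub, map_smul, LinearMap.add_apply, LinearMap.sub_apply,
      LinearMap.smul_apply, smul_eq_mul, h10] at h8 ⊢
    linarith
  have h11 := P.p0 (A.E β)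
  have h12 : (0 : ℝ) ≤ (Fintype.card ι : ℝ) - 2 := by linarith
  have h13 := mul_le_mul_of_nonneg_left h7 h12
  have h14 := mul_le_mul_of_nonneg_left h4 h12
  nlinarith

end

end Osc

end Vale.Agent.P088.HY.H593W
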